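import Mathlib

open MeasureTheory Complex intervalIntegral

namespace Vale.Agent.P076

theorem vdc (x t a κ c d : ℝ) (ha : 0 ≤ a) (ht : 0 < t) (hκ : 0 < κ) (hc : 0 ≤ c) (hcd : c ≤ d)
    (h : κ ≤ 2 * t * c - x) :
    ‖∫ s in c..d, cexp (I * (x : ℂ) * (s : ℂ) - ((a : ℂ) + I * (t : ℂ)) * (s : ℂ) ^ 2)‖
      ≤ 3 / κ := by
  have hp : ∀ s ∈ Set.uIcc c d, κ ≤ 2 * t * s - x := by
    intro s hs
    rw [Set.uIcc_of_le hcd] at hs
    have : 2 * t * c ≤ 2 * t * s := by
      apply mul_le_mul_of_nonneg_left hs.1 (by positivity)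
    linarith
  have hs0 : ∀ s ∈ Set.uIcc c d, 0 ≤ s := by
    intro s hs
    rw [Set.uIcc_of_le hcd] at hs
    linarith [hs.1]
  set H : ℝ → ℝ := fun s => Real.exp (-a * s ^ 2) / (2 * t * s - x) with hH
  set H' : ℝ → ℝ := fun s =>
    (Real.exp (-a * s ^ 2) * (-a * (2 * s)) * (2 * t * s - x) - Real.exp (-a * s ^ 2) * (2 * t))
      / (2 * t * s - x) ^ 2 with hH'
  have hHd : ∀ s ∈ Set.uIcc c d, HasDerivAt H (H' s) s := by
    intro s hs
    have hne : 2 * t * s - x ≠ 0 := by have := hp s hs; linarith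
    have h1 : HasDerivAt (fun s : ℝ => Real.exp (-a * s ^ 2))
        (Real.exp (-a * s ^ 2) * (-a * (2 * s))) s := by
      have : HasDerivAt (fun s : ℝ => -a * s ^ 2) (-a * (2 * s)) s := by
        have := (hasDerivAt_pow 2 s).const_mul (-a)
        simpa using this
      exact this.exp
    have h2 : HasDerivAt (fun s : ℝ => 2 * t * s - x) (2 * t) s := by
      have := ((hasDerivAt_id s).const_mul (2 * t)).sub_const x
      simpa using this
    exact h1.div h2 hne
  have hH'nonpos : ∀ s ∈ Set.uIcc c d, H' s ≤ 0 := by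
    intro s hs
    have hpos : 0 < 2 * t * s - x := by have := hp s hs; linarith
    have hs' := hs0 s hs
    apply div_nonpos_of_nonpos_of_nonneg _ (by positivity)
    have e : 0 < Real.exp (-a * s ^ 2) := Real.exp_pos _
    have h1 : Real.exp (-a * s ^ 2) * (-a * (2 * s)) * (2 * t * s - x) ≤ 0 := by
      have : 0 ≤ Real.exp (-a * s ^ 2) * (a * (2 * s)) * (2 * t * s - x) := by positivity
      nlinarith
    have h2 : 0 ≤ Real.exp (-a * s ^ 2) * (2 * t) := by positivity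
    linarith
  have hHbound : ∀ s ∈ Set.uIcc c d, 0 ≤ H s ∧ H s ≤ 1 / κ := by
    intro s hs
    have hpos : 0 < 2 * t * s - x := by have := hp s hs; linarith
    constructor
    · exact div_nonneg (Real.exp_pos _).le hpos.le
    · have h1 : Real.exp (-a * s ^ 2) ≤ 1 := by
        apply Real.exp_le_one_iff.mpr
        have : 0 ≤ a * s ^ 2 := by positivity
        linarith
      exact div_le_div₀ zero_le_one h1 hκ (hp s hs)
  have hH'cont : ContinuousOn H' (Set.uIcc c d) := by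
    apply ContinuousOn.div
    · fun_prop
    · fun_prop
    · intro s hs
      have := hp s hs
      have hpos : 0 < 2 * t * s - x := by linarith
      positivity
  set v : ℝ → ℂ := fun s => I * cexp (I * ((x : ℂ) * (s : ℂ) - (t : ℂ) * (s : ℂ) ^ 2)) with hv
  set v' : ℝ → ℂ := fun s =>
    I * (cexp (I * ((x : ℂ) * (s : ℂ) - (t : ℂ) * (s : ℂ) ^ 2)) *
      (I * ((x : ℂ) - (t : ℂ) * (2 * (s : ℂ))))) with hv'
  have hvd : ∀ s ∈ Set.uIcc c d, HasDerivAt v (v' s) s := by
    intro s _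
    have h0 : HasDerivAt (fun s : ℝ => (s : ℂ)) 1 s := Complex.ofRealCLM.hasDerivAt
    have h1 : HasDerivAt (fun s : ℝ => (x : ℂ) * (s : ℂ) - (t : ℂ) * (s : ℂ) ^ 2)
        ((x : ℂ) - (t : ℂ) * (2 * (s : ℂ))) s := by
      have ha1 := h0.const_mul (x : ℂ)
      have ha2 := (h0.pow 2).const_mul (t : ℂ)
      have h3 := ha1.sub ha2
      have e : (x : ℂ) * 1 - (t : ℂ) * (((2 : ℕ) : ℂ) * (s : ℂ) ^ (2 - 1) * 1)
          = (x : ℂ) - (t : ℂ) * (2 * (s : ℂ)) := by norm_num
      rw [e] at h3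
      exact h3
    exact ((h1.const_mul I).cexp).const_mul I
  have hvnorm : ∀ s : ℝ, ‖v s‖ = 1 := by
    intro s
    simp only [hv, norm_mul, norm_I, one_mul]
    have : I * ((x : ℂ) * (s : ℂ) - (t : ℂ) * (s : ℂ) ^ 2)
        = ((x * s - t * s ^ 2 : ℝ) : ℂ) * I := by push_cast; ring
    rw [this, Complex.norm_exp_ofReal_mul_I]
  have hv'cont : Continuous v' := by
    simp only [hv']
    fun_prop
  have hvcont : Continuous v := by
    simp only [hv]
    fun_prop
  have hud : ∀ s ∈ Set.uIcc c d, HasDerivAt (fun s : ℝ => ((H s : ℝ) : ℂ)) ((H' s : ℝ) : ℂ) s := by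
    intro s hs
    exact (hHd s hs).ofReal_comp
  have hu'int : IntervalIntegrable (fun s : ℝ => ((H' s : ℝ) : ℂ)) volume c d := by
    apply ContinuousOn.intervalIntegrable
    exact Complex.continuous_ofReal.comp_continuousOn hH'cont
  have hparts := integral_mul_deriv_eq_deriv_mul hud hvd hu'int
    (hv'cont.intervalIntegrable c d)
  have hcongr : ∫ s in c..d, cexp (I * (x : ℂ) * (s : ℂ) - ((a : ℂ) + I * (t : ℂ)) * (s : ℂ) ^ 2)
      = ∫ s in c..d, ((H s : ℝ) : ℂ) * v' s := by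
    apply integral_congr
    intro s hs
    have hne : ((2 * t * s - x : ℝ) : ℂ) ≠ 0 := by
      have := hp s hs
      have hpos : 0 < 2 * t * s - x := by linarith
      exact_mod_cast hpos.ne'
    simp only [hH, hv']
    have e1 : cexp (I * (x : ℂ) * (s : ℂ) - ((a : ℂ) + I * (t : ℂ)) * (s : ℂ) ^ 2)
        = cexp ((-a * s ^ 2 : ℝ) : ℂ) * cexp (I * ((x : ℂ) * (s : ℂ) - (t : ℂ) * (s : ℂ) ^ 2)) := by
      rw [← Complex.exp_add]; congr 1; push_cast; ring
    rw [e1, Complex.ofReal_div, Complex.ofReal_exp]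
    have e2 : I * (cexp (I * ((x : ℂ) * (s : ℂ) - (t : ℂ) * (s : ℂ) ^ 2)) *
        (I * ((x : ℂ) - (t : ℂ) * (2 * (s : ℂ)))))
        = cexp (I * ((x : ℂ) * (s : ℂ) - (t : ℂ) * (s : ℂ) ^ 2)) * ((2 * t * s - x : ℝ) : ℂ) := by
      have hI : I * I = -1 := Complex.I_mul_I
      push_cast
      linear_combination (cexp (I * ((x : ℂ) * (s : ℂ) - (t : ℂ) * (s : ℂ) ^ 2)) *
        ((x : ℂ) - (t : ℂ) * (2 * (s : ℂ)))) * hI
    rw [e2]
    generalize ((2 * t * s - x : ℝ) : ℂ) = q at hne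
    field_simp
  rw [hcongr, hparts]
  have hcm : c ∈ Set.uIcc c d := Set.left_mem_uIcc
  have hdm : d ∈ Set.uIcc c d := Set.right_mem_uIcc
  have b1 : ‖((H d : ℝ) : ℂ) * v d‖ ≤ 1 / κ := by
    rw [norm_mul, hvnorm, mul_one, Complex.norm_real, Real.norm_eq_abs,
      abs_of_nonneg (hHbound d hdm).1]
    exact (hHbound d hdm).2
  have b2 : ‖((H c : ℝ) : ℂ) * v c‖ ≤ 1 / κ := by
    rw [norm_mul, hvnorm, mul_one, Complex.norm_real, Real.norm_eq_abs,
      abs_of_nonneg (hHbound c hcm).1]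
    exact (hHbound c hcm).2
  have b3 : ‖∫ s in c..d, ((H' s : ℝ) : ℂ) * v s‖ ≤ 1 / κ := by
    calc ‖∫ s in c..d, ((H' s : ℝ) : ℂ) * v s‖
        ≤ ∫ s in c..d, ‖((H' s : ℝ) : ℂ) * v s‖ := norm_integral_le_integral_norm hcd
      _ = ∫ s in c..d, -H' s := by
          apply integral_congr
          intro s hs
          simp only []
          rw [norm_mul, hvnorm, mul_one, Complex.norm_real, Real.norm_eq_abs,
            abs_of_nonpos (hH'nonpos s hs)]
      _ = -(H d - H c) := by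
          rw [intervalIntegral.integral_neg,
            integral_eq_sub_of_hasDerivAt hHd (hH'cont.intervalIntegrable)]
      _ ≤ 1 / κ := by
          have := (hHbound d hdm).1
          have := (hHbound c hcm).2
          linarith
  calc ‖((H d : ℝ) : ℂ) * v d - ((H c : ℝ) : ℂ) * v c - ∫ s in c..d, ((H' s : ℝ) : ℂ) * v s‖
      ≤ ‖((H d : ℝ) : ℂ) * v d‖ + ‖((H c : ℝ) : ℂ) * v c‖
        + ‖∫ s in c..d, ((H' s : ℝ) : ℂ) * v s‖ := by
        refine (norm_sub_le _ _).trans ?_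
        gcongr
        exact norm_sub_le _ _
    _ ≤ 1 / κ + 1 / κ + 1 / κ := by gcongr
    _ = 3 / κ := by ring

end Vale.Agent.P076
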