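import Vale.Agent.P076.MainTerm
import Vale.Agent.P076.VdC

open MeasureTheory Filter Topology Complex
open scoped Real

namespace Vale.Agent.P076

/-- the kernel appearing in the regularised integral -/
noncomputable def ker {n : ℕ} (x : Sp n) (t a : ℝ) (ξ : Sp n) : ℂ :=
  cexp (I * ((inner ℝ x ξ : ℝ) : ℂ) - I * (t : ℂ) * ((‖ξ‖ ^ 2 : ℝ) : ℂ)
      - (a : ℂ) * ((‖ξ‖ ^ 2 : ℝ) : ℂ))

theorem ker_eq {n : ℕ} (x : Sp n) (t a : ℝ) (ξ : Sp n) :
    ker x t a ξ = cexp (I * ((inner ℝ x ξ : ℝ) : ℂ) - ((a : ℂ) + I * (t : ℂ)) * ((‖ξ‖ ^ 2 : ℝ) : ℂ)) := by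
  simp only [ker]; congr 1; ring

theorem norm_ker {n : ℕ} (x : Sp n) (t a : ℝ) (ξ : Sp n) :
    ‖ker x t a ξ‖ = Real.exp (-(a * ‖ξ‖ ^ 2)) := by
  simp only [ker, Complex.norm_exp]
  congr 1
  simp only [Complex.sub_re, Complex.mul_re, Complex.I_re, Complex.I_im, Complex.ofReal_re,
    Complex.ofReal_im, Complex.mul_im]
  ring

theorem norm_ker_le_one {n : ℕ} (x : Sp n) (t : ℝ) {a : ℝ} (ha : 0 ≤ a) (ξ : Sp n) :
    ‖ker x t a ξ‖ ≤ 1 := by
  rw [norm_ker, Real.exp_le_one_iff]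
  have : 0 ≤ a * ‖ξ‖ ^ 2 := by positivity
  linarith

theorem continuous_ker {n : ℕ} (x : Sp n) (t a : ℝ) : Continuous (ker x t a) := by
  unfold ker
  fun_prop

theorem integrableOn_ker {n : ℕ} (x : Sp n) (t : ℝ) {a : ℝ} (ha : 0 ≤ a) {S : Set (Sp n)}
    (hfin : volume S ≠ ⊤) : IntegrableOn (ker x t a) S volume :=
  Measure.integrableOn_of_bounded hfin (continuous_ker x t a).aestronglyMeasurable
    (Eventually.of_forall (fun ξ => norm_ker_le_one x t ha ξ))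

theorem trivial_bound {n : ℕ} (x : Sp n) (t : ℝ) {a : ℝ} (ha : 0 ≤ a) {S : Set (Sp n)}
    (hfin : volume S < ⊤) : ‖∫ ξ in S, ker x t a ξ‖ ≤ (volume S).toReal := by
  have := norm_setIntegral_le_of_norm_le_const (μ := volume) (f := ker x t a) (C := 1) hfin
    (fun ξ _ => norm_ker_le_one x t ha ξ)
  simpa [Measure.real] using this

theorem lower_bound {n : ℕ} {S : Set (Sp n)} (hS : MeasurableSet S) (hfin : volume S < ⊤)
    (x : Sp n) (t Φ0 : ℝ)
    (h : ∀ ξ ∈ S, ∃ Z : ℤ, |(inner ℝ x ξ : ℝ) - t * ‖ξ‖ ^ 2 - Φ0 - 2 * π * Z| ≤ 1 / 2) :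
    (volume S).toReal / 2 ≤ ‖∫ ξ in S, ker x t 0 ξ‖ := by
  have hint : IntegrableOn (ker x t 0) S volume := integrableOn_ker x t le_rfl hfin.ne
  set c : ℂ := cexp (-(I * (Φ0 : ℂ))) with hc
  have hcn : ‖c‖ = 1 := by
    rw [hc, Complex.norm_exp]
    simp
  have h1 : ‖∫ ξ in S, ker x t 0 ξ‖ = ‖∫ ξ in S, c * ker x t 0 ξ‖ := by
    rw [integral_const_mul, norm_mul, hcn, one_mul]
  rw [h1]
  have hint2 : IntegrableOn (fun ξ => c * ker x t 0 ξ) S volume := hint.const_mul c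
  have h2 : (∫ ξ in S, c * ker x t 0 ξ).re ≤ ‖∫ ξ in S, c * ker x t 0 ξ‖ := Complex.re_le_norm _
  refine le_trans ?_ h2
  have h3 : (∫ ξ in S, c * ker x t 0 ξ).re = ∫ ξ in S, (c * ker x t 0 ξ).re := by
    have := integral_re (𝕜 := ℂ) hint2
    exact this.symm
  rw [h3]
  have h4 : ∫ _ξ in S, (1 / 2 : ℝ) = (volume S).toReal / 2 := by
    rw [setIntegral_const]
    simp [Measure.real]
    ring
  rw [← h4]
  apply setIntegral_mono_on
  · exact integrableOn_const hfin.ne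
  · exact hint2.re
  · exact hS
  · intro ξ hξ
    obtain ⟨Z, hZ⟩ := h ξ hξ
    set ε : ℝ := (inner ℝ x ξ : ℝ) - t * ‖ξ‖ ^ 2 - Φ0 - 2 * π * Z with hε
    have e1 : c * ker x t 0 ξ = cexp (((ε + Z * (2 * π) : ℝ) : ℂ) * I) := by
      rw [hc, ker, ← Complex.exp_add]
      congr 1
      rw [hε]
      push_cast
      ring
    rw [e1, Complex.exp_ofReal_mul_I_re, Real.cos_add_int_mul_two_pi]
    have h5 := Real.one_sub_sq_div_two_le_cos (x := ε)
    have h6 : ε ^ 2 ≤ (1 / 2) ^ 2 := sq_le_sq' (by linarith [(abs_le.mp hZ).1]) (abs_le.mp hZ).2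
    nlinarith

theorem tendsto_ker_integral {n : ℕ} (x : Sp n) (t : ℝ) {S : Set (Sp n)} (hfin : volume S < ⊤) :
    Tendsto (fun a : ℝ => ∫ ξ in S, ker x t a ξ) (𝓝[>] 0) (𝓝 (∫ ξ in S, ker x t 0 ξ)) := by
  apply tendsto_integral_filter_of_dominated_convergence (fun _ => (1 : ℝ))
  · exact Eventually.of_forall (fun a => (continuous_ker x t a).aestronglyMeasurable)
  · filter_upwards [self_mem_nhdsWithin] with a ha
    exact Eventually.of_forall (fun ξ => norm_ker_le_one x t (le_of_lt ha) ξ)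
  · exact integrableOn_const hfin.ne
  · refine Eventually.of_forall (fun ξ => ?_)
    have hcont : Continuous (fun a : ℝ => ker x t a ξ) := by
      unfold ker
      fun_prop
    exact (hcont.tendsto 0).mono_left nhdsWithin_le_nhds

end Vale.Agent.P076
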