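import Mathlib

namespace Vale.Agent.P076

theorem cover (P : ℕ) (hP : 0 < P) (y : ℕ → ℝ) (k0 : ℕ) (m : ℕ) :
    ∃ k : ℕ, k0 ≤ k ∧ k < k0 + P ^ m ∧ ∀ j < m, ∃ N : ℤ,
      0 ≤ y j - (k : ℝ) / (P : ℝ) ^ (j + 1) - N ∧
      y j - (k : ℝ) / (P : ℝ) ^ (j + 1) - N ≤ 1 / (P : ℝ) := by
  have hPr : (0 : ℝ) < P := by exact_mod_cast hP
  induction m with
  | zero => exact ⟨k0, le_rfl, by simp, by intro j hj; omega⟩
  | succ m ih =>
    obtain ⟨k, hk0, hk1, hk⟩ := ih
    set z : ℝ := y m - (k : ℝ) / (P : ℝ) ^ (m + 1) with hz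
    set θ : ℝ := Int.fract z with hθ
    have hθ0 : 0 ≤ θ := Int.fract_nonneg z
    have hθ1 : θ < 1 := Int.fract_lt_one z
    set d : ℕ := ⌊θ * P⌋₊ with hd
    have hd1 : (d : ℝ) ≤ θ * P := Nat.floor_le (by positivity)
    have hd2 : θ * P < d + 1 := Nat.lt_floor_add_one _
    have hdP : d < P := by
      have : (d : ℝ) < P := by nlinarith
      exact_mod_cast this
    refine ⟨k + d * P ^ m, by omega, ?_, ?_⟩
    · have h1 : d * P ^ m ≤ (P - 1) * P ^ m := Nat.mul_le_mul_right _ (by omega)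
      have h2 : (P - 1) * P ^ m + P ^ m = P ^ (m + 1) := by
        obtain ⟨q, rfl⟩ : ∃ q, P = q + 1 := ⟨P - 1, by omega⟩
        simp only [Nat.add_sub_cancel]
        ring
      omega
    · intro j hj
      rcases Nat.lt_succ_iff_lt_or_eq.mp hj with hjm | rfl
      · obtain ⟨N, hN0, hN1⟩ := hk j hjm
        refine ⟨N - (d * P ^ (m - (j + 1)) : ℕ), ?_⟩
        have key : ((k + d * P ^ m : ℕ) : ℝ) / (P : ℝ) ^ (j + 1)
            = (k : ℝ) / (P : ℝ) ^ (j + 1) + ((d * P ^ (m - (j + 1)) : ℕ) : ℝ) := by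
          have hsplit : (P : ℝ) ^ m = (P : ℝ) ^ (m - (j + 1)) * (P : ℝ) ^ (j + 1) := by
            rw [← pow_add]; congr 1; omega
          push_cast
          rw [hsplit]
          field_simp
        rw [key]
        push_cast
        constructor <;> [linarith; linarith]
      · refine ⟨⌊z⌋, ?_⟩
        have key : ((k + d * P ^ j : ℕ) : ℝ) / (P : ℝ) ^ (j + 1)
            = (k : ℝ) / (P : ℝ) ^ (j + 1) + (d : ℝ) / P := by
          push_cast
          rw [pow_succ]
          field_simp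
        rw [key]
        have hfr : z - ⌊z⌋ = θ := by rw [hθ]; exact (Int.self_sub_floor z)
        have e1 : y j - ((k : ℝ) / (P : ℝ) ^ (j + 1) + (d : ℝ) / P) - (⌊z⌋ : ℝ) = θ - d / P := by
          rw [← hfr, hz]; ring
        rw [e1]
        constructor
        · rw [sub_nonneg, div_le_iff₀ hPr]; exact hd1
        · rw [sub_le_iff_le_add, ← add_div, le_div_iff₀ hPr]; linarith

end Vale.Agent.P076
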