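import Mathlib

open MeasureTheory Filter Topology Complex
open scoped FourierTransform Real

namespace Vale.Agent.P076

/-- Euclidean space of dimension `n`. -/
abbrev Sp (n : ℕ) : Type := EuclideanSpace ℝ (Fin n)

/-- The critical exponent `n / (2 (n + 1))`. -/
noncomputable def sCrit (n : ℕ) : ℝ := (n : ℝ) / (2 * ((n : ℝ) + 1))

/-- The Fourier transform of an `L^2` function with kernel `exp (- i x ξ)`:
it is the unitary `L^2` Fourier transform of Mathlib (kernel `exp (- 2 π i x η)`)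
evaluated at `η = ξ / (2 π)`. -/
noncomputable def hat {n : ℕ} (f : Lp ℂ 2 (volume : Measure (Sp n))) (ξ : Sp n) : ℂ :=
  (𝓕 f : Lp ℂ 2 (volume : Measure (Sp n))) ((2 * π)⁻¹ • ξ)

/-- The Gaussian regularisation
`(2 π)^(-n) ∫ exp (i x ξ - i t |ξ|^2 - a |ξ|^2) hat f (ξ) dξ`. -/
noncomputable def regInt {n : ℕ} (f : Lp ℂ 2 (volume : Measure (Sp n))) (x : Sp n) (t a : ℝ) : ℂ :=
  (((2 * π : ℝ) : ℂ) ^ n)⁻¹ *
    ∫ ξ : Sp n, cexp (I * ((inner ℝ x ξ : ℝ) : ℂ) - I * (t : ℂ) * ((‖ξ‖ ^ 2 : ℝ) : ℂ)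
      - (a : ℂ) * ((‖ξ‖ ^ 2 : ℝ) : ℂ)) * hat f ξ

/-- `exp (i t Δ) f (x)` is defined and equals `v`. -/
def HasValue {n : ℕ} (f : Lp ℂ 2 (volume : Measure (Sp n))) (x : Sp n) (t : ℝ) (v : ℂ) : Prop :=
  Tendsto (fun a : ℝ => regInt f x t a) (𝓝[>] 0) (𝓝 v)

/-- `exp (i t Δ) f (x)` is defined for all sufficiently small `t > 0` and tends to `c`
as `t` decreases to `0`. -/
def ConvergesAt {n : ℕ} (f : Lp ℂ 2 (volume : Measure (Sp n))) (x : Sp n) (c : ℂ) : Prop :=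
  ∃ δ : ℝ, 0 < δ ∧ ∃ u : ℝ → ℂ, (∀ t : ℝ, 0 < t → t < δ → HasValue f x t (u t)) ∧
    Tendsto u (𝓝[>] 0) (𝓝 c)

end Vale.Agent.P076
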