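import Vale.Agent.P076.Norms

open MeasureTheory Filter Topology Complex
open scoped Real FourierTransform

namespace Vale.Agent.P076

theorem exists_goodSeq (w : ℝ → ℝ) (hw : Tendsto w atTop (𝓝 0)) :
    ∃ Ls : ℕ → ℕ, GoodSeq Ls ∧ ∀ j, ∀ r : ℝ, (Ls j : ℝ) ≤ r → w r ≤ (1 / 32) ^ j := by
  have h1 : ∀ j : ℕ, ∃ N : ℕ, ∀ r : ℝ, (N : ℝ) ≤ r → w r ≤ (1 / 32) ^ j := by
    intro j
    have hpos : (0 : ℝ) < (1 / 32) ^ j := by positivity
    have := hw.eventually (Iio_mem_nhds hpos)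
    obtain ⟨a, ha⟩ := Filter.eventually_atTop.mp this
    refine ⟨⌈a⌉₊, fun r hr => ?_⟩
    exact le_of_lt (ha r ((Nat.le_ceil a).trans hr))
  choose N hN using h1
  let Ls : ℕ → ℕ := fun j => Nat.rec (N 0 + 1) (fun i prev => 8 * prev + N (i + 1)) j
  have hLs0 : Ls 0 = N 0 + 1 := rfl
  have hLsS : ∀ j, Ls (j + 1) = 8 * Ls j + N (j + 1) := fun j => rfl
  refine ⟨Ls, ⟨?_, ?_⟩, ?_⟩
  · intro j
    induction j with
    | zero => rw [hLs0]; simp
    | succ j ih => rw [hLsS, pow_succ]; omega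
  · intro j
    rw [hLsS]; omega
  · intro j r hr
    apply hN j r
    refine le_trans ?_ hr
    have : N j ≤ Ls j := by
      cases j with
      | zero => rw [hLs0]; omega
      | succ j => rw [hLsS]; omega
    exact_mod_cast this

variable {m : ℕ} {Ls : ℕ → ℕ}

theorem measurable_Fm (hm : 1 ≤ m) (hLs : GoodSeq Ls) : Measurable (Fm m Ls) :=
  measurable_Fsum (fun j => measurableSet_Sset m (Ls j)) (hLs.disj hm)

theorem memLp_Fm (hm : 1 ≤ m) (hLs : GoodSeq Ls) : MemLp (Fm m Ls) 2 volume := by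
  have hmeas := (measurable_Fm hm hLs).aestronglyMeasurable (μ := volume)
  rw [memLp_two_iff_integrable_sq_norm hmeas]
  refine ⟨(hmeas.norm.pow 2), ?_⟩
  rw [hasFiniteIntegral_iff_ofReal (Eventually.of_forall (fun ξ => by positivity))]
  simpa only [one_mul] using l2_finite hm hLs

theorem two_pi_ne : (2 * π : ℝ) ≠ 0 := by have := Real.pi_pos; positivity

theorem memLp_scaled (hm : 1 ≤ m) (hLs : GoodSeq Ls) :
    MemLp (fun η : Sp (m + 1) => Fm m Ls ((2 * π) • η)) 2 volume := by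
  have h1 : MemLp (Fm m Ls) 2 (Measure.map (fun η : Sp (m + 1) => (2 * π) • η) volume) := by
    rw [Measure.map_addHaar_smul volume two_pi_ne]
    exact (memLp_Fm hm hLs).smul_measure ENNReal.ofReal_ne_top
  have h2 := (memLp_map_measure_iff (measurable_Fm hm hLs).aestronglyMeasurable
    (measurable_const_smul (2 * π)).aemeasurable).mp h1
  exact h2

/-- the counterexample -/
noncomputable def fCE (hm : 1 ≤ m) (hLs : GoodSeq Ls) : Lp ℂ 2 (volume : Measure (Sp (m + 1))) :=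
  𝓕⁻ ((memLp_scaled hm hLs).toLp _)

theorem hat_fCE (hm : 1 ≤ m) (hLs : GoodSeq Ls) : hat (fCE hm hLs) =ᵐ[volume] Fm m Ls := by
  have h1 : (𝓕 (fCE hm hLs) : Lp ℂ 2 (volume : Measure (Sp (m + 1))))
      = (memLp_scaled hm hLs).toLp _ := by
    unfold fCE
    exact FourierTransform.fourier_fourierInv_eq _
  have h2 : ((memLp_scaled hm hLs).toLp _ : Sp (m + 1) → ℂ)
      =ᵐ[volume] (fun η : Sp (m + 1) => Fm m Ls ((2 * π) • η)) := MemLp.coeFn_toLp _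
  have hq : Measure.QuasiMeasurePreserving (fun ξ : Sp (m + 1) => (2 * π)⁻¹ • ξ) volume volume :=
    Measure.quasiMeasurePreserving_smul volume (inv_ne_zero two_pi_ne)
  have h3 := hq.ae_eq_comp h2
  filter_upwards [h3] with ξ hξ
  unfold hat
  rw [h1]
  simp only [Function.comp] at hξ
  rw [hξ, smul_smul, mul_inv_cancel₀ two_pi_ne, one_smul]

theorem regInt_fCE (hm : 1 ≤ m) (hLs : GoodSeq Ls) (x : Sp (m + 1)) (t a : ℝ) :
    regInt (fCE hm hLs) x t a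
      = (((2 * π : ℝ) : ℂ) ^ (m + 1))⁻¹ * ∫ ξ, ker x t a ξ * Fm m Ls ξ := by
  unfold regInt
  congr 1
  apply integral_congr_ae
  filter_upwards [hat_fCE hm hLs] with ξ hξ
  rw [hξ]
  rfl

theorem blowup_fCE (hm : 1 ≤ m) (hLs : GoodSeq Ls) (x : Sp (m + 1))
    (hx0 : x 0 ∈ Set.Icc (1 / 2 : ℝ) 1) (hx : ∀ j : Fin m, x j.succ ∈ Set.Icc (0 : ℝ) 1)
    (M δ : ℝ) (hδ : 0 < δ) :
    ∃ t : ℝ, 0 < t ∧ t < δ ∧ ∃ v : ℂ, HasValue (fCE hm hLs) x t v ∧ M ≤ ‖v‖ := by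
  obtain ⟨k, hk⟩ := pow_unbounded_of_one_lt (max (3 * (M + 1)) (1 / δ)) (by norm_num : (1 : ℝ) < 4)
  have hk1 : 3 * (M + 1) < 4 ^ k := lt_of_le_of_lt (le_max_left _ _) hk
  have hk2 : 1 / δ < 4 ^ k := lt_of_le_of_lt (le_max_right _ _) hk
  obtain ⟨t, ht0, ht1, v, hv, hvn⟩ := blowup hm hLs x hx0 hx k
  refine ⟨t, ht0, ?_, v, ?_, by linarith⟩
  · have hR : (8 : ℝ) ^ k ≤ Rn m (Ls k) := by exact_mod_cast hLs.Rn_big hm k
    have h48 : (4 : ℝ) ^ k ≤ 8 ^ k := pow_le_pow_left₀ (by norm_num) (by norm_num) k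
    have h4pos : (0 : ℝ) < 4 ^ k := by positivity
    have h1 : 5 / (8 * (Rn m (Ls k) : ℝ)) ≤ 5 / (8 * 4 ^ k) := by
      gcongr
      exact h48.trans hR
    have h2 : 5 / (8 * (4 : ℝ) ^ k) < δ := by
      rw [div_lt_iff₀ (by positivity)]
      rw [div_lt_iff₀ hδ] at hk2
      nlinarith
    linarith
  · unfold HasValue
    simp only [regInt_fCE]
    exact hv

theorem not_converges_of_blowup {n : ℕ} (f : Lp ℂ 2 (volume : Measure (Sp n))) (x : Sp n)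
    (h : ∀ M δ : ℝ, 0 < δ → ∃ t : ℝ, 0 < t ∧ t < δ ∧ ∃ v : ℂ, HasValue f x t v ∧ M ≤ ‖v‖)
    (c : ℂ) : ¬ ConvergesAt f x c := by
  rintro ⟨δ, hδ, u, hu, hlim⟩
  have h1 : ∀ᶠ t in 𝓝[>] (0 : ℝ), ‖u t‖ < ‖c‖ + 1 := by
    have := hlim.norm.eventually (Iio_mem_nhds (show ‖c‖ < ‖c‖ + 1 by linarith))
    exact this
  rw [eventually_nhdsWithin_iff, Metric.eventually_nhds_iff] at h1
  obtain ⟨ε, hε, hball⟩ := h1
  obtain ⟨t, ht0, ht1, v, hv, hvn⟩ := h (‖c‖ + 1) (min δ ε) (lt_min hδ hε)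
  have htδ : t < δ := lt_of_lt_of_le ht1 (min_le_left _ _)
  have htε : t < ε := lt_of_lt_of_le ht1 (min_le_right _ _)
  have huv : u t = v := tendsto_nhds_unique (hu t ht0 htδ) hv
  have h2 : ‖u t‖ < ‖c‖ + 1 := by
    apply hball _ ht0
    rw [Real.dist_eq, sub_zero, abs_of_pos ht0]
    exact htε
  rw [huv] at h2
  linarith

end Vale.Agent.P076
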