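import Mathlib

open Real

namespace Vale.Agent.P076

theorem lattice_identity {D t x α η Pj : ℝ} {k l : ℕ} {N : ℤ}
    (hD : 0 < D) (ht : t = 2 * π * k / D ^ 2) (hPj : 0 < Pj) (hα : α = 1 / (2 * Pj)) :
    x * (D * (l + α) + η) - t * (D * (l + α) + η) ^ 2 - (x * D * α - t * D ^ 2 * α ^ 2)
      - 2 * π * ((l * N - k * l ^ 2 : ℤ) : ℝ)
    = 2 * π * l * (x * D / (2 * π) - k / Pj - N) + η * (x - 2 * t * D * (l + α)) - t * η ^ 2 := by
  have hpi : π ≠ 0 := Real.pi_ne_zero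
  subst ht hα
  push_cast
  field_simp
  ring

theorem lattice_dev {D t x α η δ P Pj Lr mr : ℝ} {k l : ℕ} {N : ℤ}
    (hD : 0 < D) (ht : t = 2 * π * k / D ^ 2) (hPj : 0 < Pj) (hα : α = 1 / (2 * Pj))
    (hx : x ∈ Set.Icc (0 : ℝ) 1)
    (hN0 : 0 ≤ x * D / (2 * π) - k / Pj - N) (hN1 : x * D / (2 * π) - k / Pj - N ≤ 1 / P)
    (hmr : 1 ≤ mr) (hLr : 0 < Lr) (hP : P = 32 * mr * Lr) (hl : (l : ℝ) + 1 ≤ Lr)
    (hδ : δ = 1 / (16 * mr)) (hη : η ∈ Set.Icc 0 δ)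
    (ht0 : 0 ≤ t) (ht1 : t ≤ 1) (hα1 : α ≤ 1)
    (htD : 2 * t * D * Lr ≤ 5 / 4) :
    |x * (D * (l + α) + η) - t * (D * (l + α) + η) ^ 2 - (x * D * α - t * D ^ 2 * α ^ 2)
      - 2 * π * ((l * N - k * l ^ 2 : ℤ) : ℝ)| ≤ 3 / (8 * mr) := by
  rw [lattice_identity hD ht hPj hα]
  set ε := x * D / (2 * π) - k / Pj - N with hε
  have hmpos : 0 < mr := by linarith
  set μ := 1 / mr with hμ
  have hμ0 : 0 < μ := by positivity
  have hμ1 : μ ≤ 1 := by rw [hμ, div_le_one hmpos]; exact hmr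
  have hδμ : δ = μ / 16 := by rw [hδ, hμ]; field_simp
  have hgoal : 3 / (8 * mr) = 3 / 8 * μ := by rw [hμ]; field_simp
  rw [hgoal]
  have hα0 : 0 ≤ α := by rw [hα]; positivity
  have hl0 : (0 : ℝ) ≤ l := Nat.cast_nonneg l
  have hpi0 : 0 < π := Real.pi_pos
  have hpi1 : π < 3.2 := by linarith [Real.pi_lt_d2]
  -- first term
  have hPpos : 0 < P := by rw [hP]; positivity
  have h1a : 0 ≤ 2 * π * l * ε := by positivity
  have h1b : 2 * π * l * ε ≤ μ / 5 := by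
    have e1 : l * ε ≤ Lr * (1 / P) := by
      apply mul_le_mul (by linarith) hN1 hN0 hLr.le
    have e2 : Lr * (1 / P) = μ / 32 := by rw [hP, hμ]; field_simp
    rw [e2] at e1
    have e3 : 2 * π * l * ε = 2 * π * (l * ε) := by ring
    rw [e3]
    have e4 : 0 ≤ l * ε := by positivity
    nlinarith
  -- second term
  have h2a : 0 ≤ 2 * t * D * (l + α) := by positivity
  have h2b : 2 * t * D * (l + α) ≤ 5 / 4 := by
    have : 2 * t * D * (l + α) ≤ 2 * t * D * Lr := by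
      apply mul_le_mul_of_nonneg_left (by linarith) (by positivity)
    linarith
  have hη0 := hη.1
  have hη1 := hη.2
  have h2c : η * (x - 2 * t * D * (l + α)) ≤ μ / 16 := by
    have : η * (x - 2 * t * D * (l + α)) ≤ η * 1 := by
      apply mul_le_mul_of_nonneg_left _ hη0
      linarith [hx.2]
    linarith
  have h2d : -(5 / 4 * (μ / 16)) ≤ η * (x - 2 * t * D * (l + α)) := by
    have : η * (-(5 / 4)) ≤ η * (x - 2 * t * D * (l + α)) := by
      apply mul_le_mul_of_nonneg_left _ hη0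
      linarith [hx.1]
    nlinarith
  -- third term
  have h3a : 0 ≤ t * η ^ 2 := by positivity
  have h3b : t * η ^ 2 ≤ μ / 256 := by
    have e1 : η ^ 2 ≤ (μ / 16) ^ 2 := by
      apply pow_le_pow_left₀ hη0 (by linarith)
    have e2 : t * η ^ 2 ≤ 1 * η ^ 2 := by
      apply mul_le_mul_of_nonneg_right ht1 (by positivity)
    nlinarith
  rw [abs_le]
  constructor <;> linarith

theorem slab_dev {R ρ t x η : ℝ} (hρ : 0 < ρ) (hR : R = ρ ^ 2) (hx : x ∈ Set.Icc (1 / 2 : ℝ) 1)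
    (hρ1 : 1 ≤ ρ)
    (h0 : 0 ≤ 2 * t * R - x) (h1 : 2 * t * R - x ≤ 1 / (4 * ρ)) (hη : η ∈ Set.Icc 0 (ρ / 4)) :
    |x * (R + η) - t * (R + η) ^ 2 - (x * R - t * R ^ 2)| ≤ 1 / 8 := by
  have e : x * (R + η) - t * (R + η) ^ 2 - (x * R - t * R ^ 2)
      = -(η * (2 * t * R - x)) - t * η ^ 2 := by ring
  rw [e]
  have hη0 := hη.1
  have hη1 := hη.2
  have hRpos : 0 < R := by rw [hR]; positivity
  have h14 : 1 / (4 * ρ) ≤ 1 / 4 := by
    rw [div_le_div_iff₀ (by positivity) (by norm_num)]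
    linarith
  have htR : t * R ≤ 5 / 8 := by linarith [hx.2]
  have ht0 : 0 ≤ t := by
    have : 0 ≤ t * R := by linarith [hx.1]
    by_contra hneg
    push Not at hneg
    have : t * R < 0 := mul_neg_of_neg_of_pos hneg hRpos
    linarith
  have a1 : 0 ≤ η * (2 * t * R - x) := by positivity
  have a2 : η * (2 * t * R - x) ≤ 1 / 16 := by
    calc η * (2 * t * R - x) ≤ (ρ / 4) * (1 / (4 * ρ)) := mul_le_mul hη1 h1 h0 (by positivity)
      _ = 1 / 16 := by field_simp; norm_num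
  have a3 : 0 ≤ t * η ^ 2 := by positivity
  have a4 : t * η ^ 2 ≤ 5 / 128 := by
    have e1 : η ^ 2 ≤ (ρ / 4) ^ 2 := pow_le_pow_left₀ hη0 hη1 2
    calc t * η ^ 2 ≤ t * (ρ / 4) ^ 2 := mul_le_mul_of_nonneg_left e1 ht0
      _ = (t * R) / 16 := by rw [hR]; ring
      _ ≤ 5 / 128 := by linarith
  rw [abs_le]
  constructor <;> linarith

end Vale.Agent.P076
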