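import Vale.Agent.P076.Defs

open MeasureTheory Real

namespace Vale.Agent.P076

def Pn (m L : ℕ) : ℕ := 32 * m * L
def rho (m L : ℕ) : ℕ := 64 * (Pn m L) ^ m * L ^ 2
def Rn (m L : ℕ) : ℕ := (rho m L) ^ 2
def Dn (m L : ℕ) : ℕ := 64 ^ 2 * (Pn m L) ^ (2 * m) * L ^ 3

theorem Dn_mul (m L : ℕ) : Dn m L * L = Rn m L := by
  simp only [Dn, Rn, rho]; ring

theorem Pn_pos {m L : ℕ} (hm : 1 ≤ m) (hL : 1 ≤ L) : 0 < Pn m L := by
  simp only [Pn]; positivity

theorem rho_ge {m L : ℕ} (hm : 1 ≤ m) (hL : 1 ≤ L) : 2048 * L ^ 3 ≤ rho m L := by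
  have h1 : 32 * L ≤ Pn m L := by
    simp only [Pn]
    calc 32 * L = 32 * 1 * L := by ring
      _ ≤ 32 * m * L := by gcongr
  have h2 : Pn m L ≤ (Pn m L) ^ m := by
    calc Pn m L = (Pn m L) ^ 1 := (pow_one _).symm
      _ ≤ (Pn m L) ^ m := Nat.pow_le_pow_right (Pn_pos hm hL) hm
  calc 2048 * L ^ 3 = 64 * (32 * L) * L ^ 2 := by ring
    _ ≤ 64 * (Pn m L) ^ m * L ^ 2 := by gcongr; exact h1.trans h2

theorem rho_pos {m L : ℕ} (hm : 1 ≤ m) (hL : 1 ≤ L) : 0 < rho m L := by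
  have := rho_ge hm hL
  have : 0 < 2048 * L ^ 3 := by positivity
  omega

theorem Rn_pos {m L : ℕ} (hm : 1 ≤ m) (hL : 1 ≤ L) : 0 < Rn m L := by
  simp only [Rn]; have := rho_pos hm hL; positivity

theorem Dn_pos {m L : ℕ} (hm : 1 ≤ m) (hL : 1 ≤ L) : 0 < Dn m L := by
  simp only [Dn]; have := Pn_pos hm hL; positivity

theorem Dn_ge {m L : ℕ} (hm : 1 ≤ m) (hL : 1 ≤ L) : 2 ≤ Dn m L := by
  have h1 : 1 ≤ (Pn m L) ^ (2 * m) := Nat.one_le_pow _ _ (Pn_pos hm hL)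
  have h2 : 1 ≤ L ^ 3 := Nat.one_le_pow _ _ hL
  calc 2 ≤ 64 ^ 2 * 1 * 1 := by norm_num
    _ ≤ 64 ^ 2 * (Pn m L) ^ (2 * m) * L ^ 3 := by gcongr

noncomputable def alpha (m L j : ℕ) : ℝ := 1 / (2 * (Pn m L : ℝ) ^ (j + 1))
noncomputable def delta (m : ℕ) : ℝ := 1 / (16 * (m : ℝ))

def S0 (m L : ℕ) : Set ℝ := Set.Icc (Rn m L : ℝ) ((Rn m L : ℝ) + (rho m L : ℝ) / 4)

def S1 (m L j : ℕ) : Set ℝ :=
  ⋃ l ∈ Finset.range L, Set.Icc ((Dn m L : ℝ) * ((l : ℝ) + alpha m L j))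
    ((Dn m L : ℝ) * ((l : ℝ) + alpha m L j) + delta m)

def Sc (m L : ℕ) : Fin (m + 1) → Set ℝ := Fin.cases (S0 m L) (fun j => S1 m L j)

def Sset (m L : ℕ) : Set (Sp (m + 1)) := {ξ | ∀ i, ξ i ∈ Sc m L i}

theorem alpha_pos {m L : ℕ} (hm : 1 ≤ m) (hL : 1 ≤ L) (j : ℕ) : 0 < alpha m L j := by
  have : (0 : ℝ) < Pn m L := by exact_mod_cast Pn_pos hm hL
  simp only [alpha]; positivity

theorem alpha_le {m L : ℕ} (hm : 1 ≤ m) (hL : 1 ≤ L) (j : ℕ) : alpha m L j ≤ 1 / 2 := by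
  have h0 : (1 : ℝ) ≤ Pn m L := by exact_mod_cast Pn_pos hm hL
  have h1 : (1 : ℝ) ≤ (Pn m L : ℝ) ^ (j + 1) := one_le_pow₀ h0
  simp only [alpha]
  rw [div_le_div_iff₀ (by positivity) (by norm_num)]
  linarith

theorem delta_pos {m : ℕ} (hm : 1 ≤ m) : 0 < delta m := by
  have : (0 : ℝ) < m := by exact_mod_cast hm
  simp only [delta]; positivity

theorem delta_le {m : ℕ} (hm : 1 ≤ m) : delta m ≤ 1 / 16 := by
  have : (1 : ℝ) ≤ m := by exact_mod_cast hm
  simp only [delta]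
  rw [div_le_div_iff₀ (by positivity) (by norm_num)]
  linarith

theorem measurableSet_S0 (m L : ℕ) : MeasurableSet (S0 m L) := measurableSet_Icc

theorem measurableSet_S1 (m L j : ℕ) : MeasurableSet (S1 m L j) :=
  Finset.measurableSet_biUnion _ (fun _ _ => measurableSet_Icc)

theorem measurableSet_Sc (m L : ℕ) (i : Fin (m + 1)) : MeasurableSet (Sc m L i) := by
  refine Fin.cases ?_ ?_ i
  · exact measurableSet_S0 m L
  · intro j; exact measurableSet_S1 m L j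

theorem Sset_eq (m L : ℕ) :
    Sset m L = (WithLp.ofLp : Sp (m + 1) → (Fin (m + 1) → ℝ)) ⁻¹' (Set.univ.pi (Sc m L)) := by
  ext ξ
  simp [Sset, Set.mem_pi]

theorem measurableSet_Sset (m L : ℕ) : MeasurableSet (Sset m L) := by
  rw [Sset_eq]
  exact (PiLp.volume_preserving_ofLp (Fin (m + 1))).measurable
    (MeasurableSet.univ_pi (measurableSet_Sc m L))

theorem volume_S0 (m L : ℕ) : volume (S0 m L) = ENNReal.ofReal ((rho m L : ℝ) / 4) := by
  simp only [S0, Real.volume_Icc]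
  congr 1; ring

theorem volume_S1 {m L : ℕ} (hm : 1 ≤ m) (hL : 1 ≤ L) (j : ℕ) :
    volume (S1 m L j) = ENNReal.ofReal ((L : ℝ) * delta m) := by
  simp only [S1]
  rw [measure_biUnion_finset]
  · simp only [Real.volume_Icc, add_sub_cancel_left, Finset.sum_const, Finset.card_range,
      nsmul_eq_mul]
    rw [ENNReal.ofReal_mul (by positivity), ENNReal.ofReal_natCast]
  · intro l _ l' _ hne
    have hD : (2 : ℝ) ≤ Dn m L := by exact_mod_cast Dn_ge hm hL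
    have hδ := delta_le hm
    simp only [Function.onFun]
    rw [Set.disjoint_left]
    intro s hs hs'
    rcases lt_or_gt_of_ne hne with h | h
    · have h' : (l : ℝ) + 1 ≤ l' := by exact_mod_cast h
      have := hs.2
      have := hs'.1
      nlinarith
    · have h' : (l' : ℝ) + 1 ≤ l := by exact_mod_cast h
      have := hs.1
      have := hs'.2
      nlinarith
  · intro l _
    exact measurableSet_Icc

theorem volume_Sset {m L : ℕ} (hm : 1 ≤ m) (hL : 1 ≤ L) :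
    volume (Sset m L) = ENNReal.ofReal ((rho m L : ℝ) / 4 * ((L : ℝ) * delta m) ^ m) := by
  rw [Sset_eq, (PiLp.volume_preserving_ofLp (Fin (m + 1))).measure_preimage
    (MeasurableSet.univ_pi (measurableSet_Sc m L)).nullMeasurableSet, volume_pi_pi,
    Fin.prod_univ_succ]
  have h0 : Sc m L 0 = S0 m L := rfl
  have h1 : ∀ j : Fin m, Sc m L j.succ = S1 m L j := fun j => rfl
  simp only [h0, h1, volume_S0, volume_S1 hm hL, Finset.prod_const, Finset.card_univ,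
    Fintype.card_fin]
  have := delta_pos hm
  have e : ENNReal.ofReal ((rho m L : ℝ) / 4 * ((L : ℝ) * delta m) ^ m)
      = ENNReal.ofReal ((rho m L : ℝ) / 4) * (ENNReal.ofReal ((L : ℝ) * delta m)) ^ m := by
    rw [ENNReal.ofReal_mul (by positivity), ENNReal.ofReal_pow (by positivity)]
  rw [e]

/-- the volume as a real number -/
noncomputable def Vol (m L : ℕ) : ℝ := (rho m L : ℝ) / 4 * ((L : ℝ) * delta m) ^ m

theorem Vol_pos {m L : ℕ} (hm : 1 ≤ m) (hL : 1 ≤ L) : 0 < Vol m L := by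
  have h1 : (0 : ℝ) < rho m L := by exact_mod_cast rho_pos hm hL
  have h2 : (0 : ℝ) < L := by exact_mod_cast hL
  have := delta_pos hm
  simp only [Vol]; positivity

theorem volume_Sset' {m L : ℕ} (hm : 1 ≤ m) (hL : 1 ≤ L) :
    volume (Sset m L) = ENNReal.ofReal (Vol m L) := volume_Sset hm hL

theorem volume_real_Sset {m L : ℕ} (hm : 1 ≤ m) (hL : 1 ≤ L) :
    (volume (Sset m L)).toReal = Vol m L := by
  rw [volume_Sset' hm hL, ENNReal.toReal_ofReal (Vol_pos hm hL).le]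

end Vale.Agent.P076
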