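import Vale.Agent.P076.Defs

open MeasureTheory Complex

namespace Vale.Agent.P076

theorem inner_eq_sum {n : ℕ} (x ξ : Sp n) : (inner ℝ x ξ : ℝ) = ∑ i, x i * ξ i := by
  simp only [PiLp.inner_apply, RCLike.inner_apply, conj_trivial]
  apply Finset.sum_congr rfl
  intro i _
  ring

theorem phase_eq_sum {n : ℕ} (x ξ : Sp n) (z : ℂ) :
    I * ((inner ℝ x ξ : ℝ) : ℂ) - z * ((‖ξ‖ ^ 2 : ℝ) : ℂ)
      = ∑ i, (I * (x i : ℂ) * (ξ i : ℂ) - z * (ξ i : ℂ) ^ 2) := by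
  rw [inner_eq_sum, EuclideanSpace.real_norm_sq_eq]
  push_cast
  rw [Finset.sum_sub_distrib, Finset.mul_sum, Finset.mul_sum]
  congr 1
  apply Finset.sum_congr rfl
  intro i _
  ring

theorem prod_formula {n : ℕ} (Sc : Fin n → Set ℝ) (x : Sp n) (z : ℂ) :
    ∫ ξ : Sp n, Set.indicator {ξ : Sp n | ∀ i, ξ i ∈ Sc i}
        (fun ξ => cexp (I * ((inner ℝ x ξ : ℝ) : ℂ) - z * ((‖ξ‖ ^ 2 : ℝ) : ℂ))) ξ
      = ∏ i, ∫ s : ℝ, Set.indicator (Sc i)
          (fun s : ℝ => cexp (I * (x i : ℂ) * (s : ℂ) - z * (s : ℂ) ^ 2)) s := by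
  rw [← (PiLp.volume_preserving_toLp (Fin n)).integral_comp
    (MeasurableEquiv.toLp 2 _).measurableEmbedding]
  rw [← integral_fintype_prod_volume_eq_prod]
  congr 1
  funext y
  by_cases hy : ∀ i, y i ∈ Sc i
  · have h1 : (WithLp.toLp 2 y : Sp n) ∈ {ξ : Sp n | ∀ i, ξ i ∈ Sc i} := hy
    rw [Set.indicator_of_mem h1, phase_eq_sum, Complex.exp_sum]
    apply Finset.prod_congr rfl
    intro i _
    rw [Set.indicator_of_mem (hy i)]
  · have h1 : (WithLp.toLp 2 y : Sp n) ∉ {ξ : Sp n | ∀ i, ξ i ∈ Sc i} := hy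
    rw [Set.indicator_of_notMem h1]
    push Not at hy
    obtain ⟨i, hi⟩ := hy
    symm
    apply Finset.prod_eq_zero (Finset.mem_univ i)
    rw [Set.indicator_of_notMem hi]

end Vale.Agent.P076
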