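import Vale.Agent.P076.Cover
import Vale.Agent.P076.Lattice
import Vale.Agent.P076.Params
import Vale.Agent.P076.Prod

open MeasureTheory Real

namespace Vale.Agent.P076

theorem phase_main {m L : ℕ} (hm : 1 ≤ m) (hL : 1 ≤ L) (x : Sp (m + 1))
    (hx0 : x 0 ∈ Set.Icc (1 / 2 : ℝ) 1) (hx : ∀ j : Fin m, x j.succ ∈ Set.Icc (0 : ℝ) 1) :
    ∃ t : ℝ, 1 / (4 * (Rn m L : ℝ)) ≤ t ∧ t ≤ 5 / (8 * (Rn m L : ℝ)) ∧
      ∃ Φ0 : ℝ, ∀ ξ ∈ Sset m L, ∃ Z : ℤ,
        |(inner ℝ x ξ : ℝ) - t * ‖ξ‖ ^ 2 - Φ0 - 2 * π * Z| ≤ 1 / 2 := by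
  have hPpos : (0 : ℝ) < Pn m L := by exact_mod_cast Pn_pos hm hL
  have hρpos : (0 : ℝ) < rho m L := by exact_mod_cast rho_pos hm hL
  have hρ1 : (1 : ℝ) ≤ rho m L := by exact_mod_cast rho_pos hm hL
  have hRpos : (0 : ℝ) < Rn m L := by exact_mod_cast Rn_pos hm hL
  have hDpos : (0 : ℝ) < Dn m L := by exact_mod_cast Dn_pos hm hL
  have hLpos : (0 : ℝ) < L := by exact_mod_cast hL
  have hmr : (1 : ℝ) ≤ m := by exact_mod_cast hm
  have hρdef : (rho m L : ℝ) = 64 * (Pn m L : ℝ) ^ m * (L : ℝ) ^ 2 := by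
    simp only [rho]; push_cast; ring
  have hR : (Rn m L : ℝ) = (rho m L : ℝ) ^ 2 := by simp only [Rn]; push_cast; ring
  have hDL : (Dn m L : ℝ) * L = Rn m L := by exact_mod_cast Dn_mul m L
  have hPdef : (Pn m L : ℝ) = 32 * (m : ℝ) * L := by simp only [Pn]; push_cast; ring
  have hR1 : (1 : ℝ) ≤ Rn m L := by exact_mod_cast Rn_pos hm hL
  set P : ℝ := (Pn m L : ℝ) with hP
  set ρ : ℝ := (rho m L : ℝ) with hρ
  set R : ℝ := (Rn m L : ℝ) with hRR
  set D : ℝ := (Dn m L : ℝ) with hD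
  have hpi : 0 < π := Real.pi_pos
  set y : ℕ → ℝ := fun j => if h : j < m then x (⟨j, h⟩ : Fin m).succ * D / (2 * π) else 0 with hy
  set q : ℝ := x 0 * D ^ 2 / (4 * π * R) with hq
  have hq0 : 0 ≤ q := by
    have := hx0.1
    have : 0 ≤ x 0 := by linarith
    positivity
  obtain ⟨k, hk0, hk1, hk⟩ := cover (Pn m L) (Pn_pos hm hL) y ⌈q⌉₊ m
  set t : ℝ := 2 * π * k / D ^ 2 with ht
  set σ : ℝ := 4 * π * R / D ^ 2 with hσ
  have hσpos : 0 < σ := by positivity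
  have htσ : 2 * t * R = k * σ := by rw [ht, hσ]; field_simp; ring
  have hqσ : q * σ = x 0 := by rw [hq, hσ]; field_simp
  have hPσ : P ^ m * σ ≤ 1 / (4 * ρ) := by
    have e1 : P ^ m * σ = π / (16 * ρ) := by
      have hDeq : D = R / L := by rw [← hDL]; field_simp
      rw [hσ, hDeq, hR, hρdef]
      field_simp
      ring
    rw [e1, div_le_div_iff₀ (by positivity) (by positivity)]
    have : π ≤ 4 := Real.pi_le_four
    nlinarith
  have hkq : q ≤ k := (Nat.le_ceil q).trans (by exact_mod_cast hk0)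
  have hkq' : (k : ℝ) < q + P ^ m := by
    have h1 : (k : ℝ) + 1 ≤ (⌈q⌉₊ : ℝ) + P ^ m := by
      have : k + 1 ≤ ⌈q⌉₊ + (Pn m L) ^ m := hk1
      rw [hP]
      exact_mod_cast this
    have h2 : (⌈q⌉₊ : ℝ) < q + 1 := Nat.ceil_lt_add_one hq0
    linarith
  have hw0 : 0 ≤ 2 * t * R - x 0 := by
    rw [htσ, ← hqσ]
    have : q * σ ≤ k * σ := mul_le_mul_of_nonneg_right hkq hσpos.le
    linarith
  have hw1 : 2 * t * R - x 0 ≤ 1 / (4 * ρ) := by
    rw [htσ, ← hqσ]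
    have : k * σ ≤ (q + P ^ m) * σ := mul_le_mul_of_nonneg_right hkq'.le hσpos.le
    nlinarith
  have h14 : 1 / (4 * ρ) ≤ 1 / 4 := by
    rw [div_le_div_iff₀ (by positivity) (by norm_num)]
    linarith
  have htlow : 1 / (4 * R) ≤ t := by
    rw [div_le_iff₀ (by positivity)]
    linarith [hx0.1]
  have hthigh : t ≤ 5 / (8 * R) := by
    rw [le_div_iff₀ (by positivity)]
    linarith [hx0.2]
  have ht0 : 0 ≤ t := by positivity
  have ht1 : t ≤ 1 := by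
    refine hthigh.trans ?_
    rw [div_le_one (by positivity)]
    linarith
  have htD : 2 * t * D * L ≤ 5 / 4 := by
    have : 2 * t * D * L = 2 * t * R := by rw [← hDL]; ring
    rw [this]
    linarith [hx0.2]
  refine ⟨t, htlow, hthigh, ?_⟩
  -- choose integers
  have hkN : ∀ j : Fin m, ∃ N : ℤ,
      0 ≤ x j.succ * D / (2 * π) - (k : ℝ) / P ^ ((j : ℕ) + 1) - N ∧
      x j.succ * D / (2 * π) - (k : ℝ) / P ^ ((j : ℕ) + 1) - N ≤ 1 / P := by
    intro j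
    obtain ⟨N, h0, h1⟩ := hk j j.2
    have hyj : y j = x j.succ * D / (2 * π) := by
      simp only [hy, dif_pos j.2]
    rw [hyj] at h0 h1
    exact ⟨N, h0, h1⟩
  choose N hN0 hN1 using hkN
  refine ⟨(x 0 * R - t * R ^ 2) +
    ∑ j : Fin m, (x j.succ * D * alpha m L j - t * D ^ 2 * (alpha m L j) ^ 2), ?_⟩
  intro ξ hξ
  have hξ0 : ξ 0 ∈ S0 m L := hξ 0
  have hξj : ∀ j : Fin m, ξ j.succ ∈ S1 m L j := fun j => hξ j.succ
  have hdev : ∀ j : Fin m, ∃ Z : ℤ,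
      |x j.succ * ξ j.succ - t * (ξ j.succ) ^ 2
        - (x j.succ * D * alpha m L j - t * D ^ 2 * (alpha m L j) ^ 2) - 2 * π * Z|
        ≤ 3 / (8 * (m : ℝ)) := by
    intro j
    have h := hξj j
    simp only [S1, Set.mem_iUnion, Finset.mem_range] at h
    obtain ⟨l, hl, hmem⟩ := h
    refine ⟨(l * N j - k * l ^ 2 : ℤ), ?_⟩
    have hl' : (l : ℝ) + 1 ≤ L := by exact_mod_cast hl
    have hη : ξ j.succ - D * ((l : ℝ) + alpha m L j) ∈ Set.Icc 0 (delta m) := by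
      constructor
      · linarith [hmem.1]
      · linarith [hmem.2]
    have := lattice_dev (D := D) (t := t) (x := x j.succ) (α := alpha m L j)
      (η := ξ j.succ - D * ((l : ℝ) + alpha m L j)) (δ := delta m) (P := P)
      (Pj := P ^ ((j : ℕ) + 1)) (Lr := L) (mr := m) (k := k) (l := l) (N := N j)
      hDpos ht (by positivity) rfl (hx j) (hN0 j) (hN1 j) hmr hLpos hPdef hl' rfl hη ht0 ht1
      ((alpha_le hm hL j).trans (by norm_num)) htD
    have e : D * ((l : ℝ) + alpha m L j) + (ξ j.succ - D * ((l : ℝ) + alpha m L j)) = ξ j.succ := by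
      ring
    rw [e] at this
    exact this
  choose Z hZ using hdev
  refine ⟨∑ j, Z j, ?_⟩
  have hslab : |x 0 * ξ 0 - t * (ξ 0) ^ 2 - (x 0 * R - t * R ^ 2)| ≤ 1 / 8 := by
    have hη : ξ 0 - R ∈ Set.Icc 0 (ρ / 4) := by
      constructor
      · linarith [hξ0.1]
      · linarith [hξ0.2]
    have := slab_dev (R := R) (ρ := ρ) (t := t) (x := x 0) (η := ξ 0 - R) hρpos hR hx0 hρ1 hw0 hw1 hη
    have e : R + (ξ 0 - R) = ξ 0 := by ring
    rw [e] at this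
    exact this
  have hsum : (inner ℝ x ξ : ℝ) - t * ‖ξ‖ ^ 2
      - ((x 0 * R - t * R ^ 2) +
        ∑ j : Fin m, (x j.succ * D * alpha m L j - t * D ^ 2 * (alpha m L j) ^ 2))
      - 2 * π * ((∑ j, Z j : ℤ) : ℝ)
      = (x 0 * ξ 0 - t * (ξ 0) ^ 2 - (x 0 * R - t * R ^ 2))
        + ∑ j : Fin m, (x j.succ * ξ j.succ - t * (ξ j.succ) ^ 2
        - (x j.succ * D * alpha m L j - t * D ^ 2 * (alpha m L j) ^ 2) - 2 * π * Z j) := by
    have e1 : ∑ j : Fin m, (x j.succ * ξ j.succ - t * (ξ j.succ) ^ 2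
        - (x j.succ * D * alpha m L j - t * D ^ 2 * (alpha m L j) ^ 2) - 2 * π * Z j)
        = ∑ j : Fin m, x j.succ * ξ j.succ - t * ∑ j : Fin m, (ξ j.succ) ^ 2
          - ∑ j : Fin m, (x j.succ * D * alpha m L j - t * D ^ 2 * (alpha m L j) ^ 2)
          - 2 * π * ∑ j : Fin m, (Z j : ℝ) := by
      simp only [Finset.sum_sub_distrib, Finset.mul_sum]
    rw [e1, inner_eq_sum, EuclideanSpace.real_norm_sq_eq, Fin.sum_univ_succ, Fin.sum_univ_succ]
    push_cast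
    ring
  rw [hsum]
  calc |(x 0 * ξ 0 - t * (ξ 0) ^ 2 - (x 0 * R - t * R ^ 2))
        + ∑ j : Fin m, (x j.succ * ξ j.succ - t * (ξ j.succ) ^ 2
        - (x j.succ * D * alpha m L j - t * D ^ 2 * (alpha m L j) ^ 2) - 2 * π * Z j)|
      ≤ |x 0 * ξ 0 - t * (ξ 0) ^ 2 - (x 0 * R - t * R ^ 2)|
        + ∑ j : Fin m, |x j.succ * ξ j.succ - t * (ξ j.succ) ^ 2
        - (x j.succ * D * alpha m L j - t * D ^ 2 * (alpha m L j) ^ 2) - 2 * π * Z j| := by
        refine (abs_add_le _ _).trans ?_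
        gcongr
        exact Finset.abs_sum_le_sum_abs _ _
    _ ≤ 1 / 8 + ∑ _j : Fin m, 3 / (8 * (m : ℝ)) := by
        gcongr with j _
        exact hZ j
    _ = 1 / 2 := by
        rw [Finset.sum_const, Finset.card_univ, Fintype.card_fin, nsmul_eq_mul]
        field_simp
        norm_num

end Vale.Agent.P076
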