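import Vale.Agent.P076.Value

open MeasureTheory Filter Topology Complex
open scoped Real

namespace Vale.Agent.P076

/-- a constant depending on the dimension only -/
noncomputable def cst (m : ℕ) : ℝ := 64 * (32 * (m : ℝ)) ^ m

theorem cst_ge_one {m : ℕ} (hm : 1 ≤ m) : 1 ≤ cst m := by
  have hmr : (1 : ℝ) ≤ m := by exact_mod_cast hm
  have h1 : (1 : ℝ) ≤ (32 * (m : ℝ)) ^ m := one_le_pow₀ (by linarith)
  unfold cst
  linarith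

theorem rho_eq (m L : ℕ) : (rho m L : ℝ) = cst m * (L : ℝ) ^ (m + 2) := by
  simp only [rho, Pn, cst]
  push_cast
  rw [mul_pow, pow_add]
  ring

theorem rpow_bound {m L : ℕ} (hm : 1 ≤ m) (hL : 1 ≤ L) :
    (((Rn m L : ℝ)) ^ 2) ^ (sCrit (m + 1)) ≤ cst m ^ 2 * (L : ℝ) ^ (2 * m + 2) := by
  have hc := cst_ge_one hm
  have hLr : (1 : ℝ) ≤ L := by exact_mod_cast hL
  have hR : (Rn m L : ℝ) = (cst m * (L : ℝ) ^ (m + 2)) ^ 2 := by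
    rw [← rho_eq]; simp only [Rn]; push_cast; ring
  set z : ℝ := cst m ^ 2 * (L : ℝ) ^ (2 * m + 2) with hz
  have hz0 : 0 ≤ z := by positivity
  have hs : sCrit (m + 1) = ((m + 1 : ℕ) : ℝ) * (((2 * (m + 2) : ℕ) : ℝ))⁻¹ := by
    unfold sCrit
    push_cast
    rw [div_eq_mul_inv]
    congr 2
    ring
  have hR0 : (0 : ℝ) ≤ (Rn m L : ℝ) ^ 2 := by positivity
  rw [hs, Real.rpow_mul hR0, Real.rpow_natCast]
  have key : ((Rn m L : ℝ) ^ 2) ^ (m + 1) ≤ z ^ (2 * (m + 2)) := by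
    have e : z ^ (2 * (m + 2)) = cst m ^ 4 * ((Rn m L : ℝ) ^ 2) ^ (m + 1) := by
      rw [hz, hR]
      ring
    rw [e]
    have h4 : 1 ≤ cst m ^ 4 := one_le_pow₀ hc
    have h5 : 0 ≤ ((Rn m L : ℝ) ^ 2) ^ (m + 1) := by positivity
    nlinarith
  calc (((Rn m L : ℝ) ^ 2) ^ (m + 1)) ^ (((2 * (m + 2) : ℕ) : ℝ))⁻¹
      ≤ (z ^ (2 * (m + 2))) ^ (((2 * (m + 2) : ℕ) : ℝ))⁻¹ := by
        apply Real.rpow_le_rpow (by positivity) key (by positivity)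
    _ = z := Real.pow_rpow_inv_natCast hz0 (by omega)

theorem sCrit_nonneg (n : ℕ) : 0 ≤ sCrit n := by unfold sCrit; positivity

theorem sCrit_le_one (n : ℕ) : sCrit n ≤ 1 := by
  unfold sCrit
  rw [div_le_one (by positivity)]
  have : (0 : ℝ) ≤ n := Nat.cast_nonneg n
  linarith

theorem weight_bound {m L : ℕ} (hm : 1 ≤ m) (hL : 1 ≤ L) {ξ : Sp (m + 1)} (hξ : ξ ∈ Sset m L) :
    (1 + ‖ξ‖ ^ 2) ^ (sCrit (m + 1)) ≤ (5 + (m : ℝ)) * (cst m ^ 2 * (L : ℝ) ^ (2 * m + 2)) := by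
  have h1 := Sset_norm_sq_le hm hL hξ
  have hR1 : (1 : ℝ) ≤ Rn m L := by exact_mod_cast Rn_pos hm hL
  have hR2 : (1 : ℝ) ≤ (Rn m L : ℝ) ^ 2 := one_le_pow₀ hR1
  have h2 : 1 + ‖ξ‖ ^ 2 ≤ (5 + (m : ℝ)) * (Rn m L : ℝ) ^ 2 := by nlinarith
  have hm0 : (0 : ℝ) ≤ m := Nat.cast_nonneg m
  calc (1 + ‖ξ‖ ^ 2) ^ (sCrit (m + 1))
      ≤ ((5 + (m : ℝ)) * (Rn m L : ℝ) ^ 2) ^ (sCrit (m + 1)) :=
        Real.rpow_le_rpow (by positivity) h2 (sCrit_nonneg _)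
    _ = (5 + (m : ℝ)) ^ (sCrit (m + 1)) * ((Rn m L : ℝ) ^ 2) ^ (sCrit (m + 1)) :=
        Real.mul_rpow (by positivity) (by positivity)
    _ ≤ (5 + (m : ℝ)) * (cst m ^ 2 * (L : ℝ) ^ (2 * m + 2)) := by
        apply mul_le_mul _ (rpow_bound hm hL) (by positivity) (by positivity)
        calc (5 + (m : ℝ)) ^ (sCrit (m + 1)) ≤ (5 + (m : ℝ)) ^ (1 : ℝ) :=
              Real.rpow_le_rpow_of_exponent_le (by linarith) (sCrit_le_one _)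
          _ = 5 + (m : ℝ) := Real.rpow_one _

theorem tsum_ofReal_lt_top (u : ℕ → ℝ) (C : ℝ) (hC : 0 ≤ C) (h : ∀ j, u j ≤ C * (1 / 2) ^ j) :
    ∑' j, ENNReal.ofReal (u j) < ⊤ := by
  have hs : Summable (fun j : ℕ => C * (1 / 2 : ℝ) ^ j) :=
    (summable_geometric_of_lt_one (by norm_num) (by norm_num)).mul_left _
  calc ∑' j, ENNReal.ofReal (u j) ≤ ∑' j, ENNReal.ofReal (C * (1 / 2 : ℝ) ^ j) :=
        ENNReal.tsum_le_tsum (fun j => ENNReal.ofReal_le_ofReal (h j))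
    _ = ENNReal.ofReal (∑' j, C * (1 / 2 : ℝ) ^ j) :=
        (ENNReal.ofReal_tsum_of_nonneg (fun j => by positivity) hs).symm
    _ < ⊤ := ENNReal.ofReal_lt_top

variable {m : ℕ} {Ls : ℕ → ℕ}

theorem Amp_sq_Vol (hm : 1 ≤ m) (hLs : GoodSeq Ls) (j : ℕ) :
    Amp m Ls j ^ 2 * Vol m (Ls j)
      = 4 * 16 ^ j * ((2 * π) ^ (m + 1)) ^ 2 / (16 * 2 ^ m * (Ls j : ℝ) ^ (2 * m + 2)) := by
  have hV := Vol_pos hm (hLs.one_le j)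
  have hL : (0 : ℝ) < Ls j := by exact_mod_cast hLs.one_le j
  have e : Vol m (Ls j) = 16 * 2 ^ m * (Ls j : ℝ) ^ (2 * m + 2) := by
    rw [Vol_eq hm, mul_pow]; ring
  unfold Amp
  rw [e]
  rw [show (16 : ℝ) ^ j = (4 ^ j) ^ 2 by rw [← pow_mul, mul_comm, pow_mul]; norm_num]
  field_simp
  norm_num

theorem weighted_finite (hm : 1 ≤ m) (hLs : GoodSeq Ls) (w : ℝ → ℝ)
    (hw : ∀ j, ∀ r : ℝ, (Ls j : ℝ) ≤ r → w r ≤ (1 / 32) ^ j) :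
    ∫⁻ ξ, ENNReal.ofReal ((1 + ‖ξ‖ ^ 2) ^ (sCrit (m + 1)) * w ‖ξ‖ * ‖Fm m Ls ξ‖ ^ 2) < ⊤ := by
  have hpi := Real.pi_pos
  have hm0 : (0 : ℝ) ≤ m := Nat.cast_nonneg m
  have h := lintegral_Fsum_le (S := fun j => Sset m (Ls j)) (A := Amp m Ls)
    (fun j => measurableSet_Sset m (Ls j)) (hLs.disj hm)
    (fun ξ => (1 + ‖ξ‖ ^ 2) ^ (sCrit (m + 1)) * w ‖ξ‖)
    (fun j => (5 + (m : ℝ)) * (cst m ^ 2 * (Ls j : ℝ) ^ (2 * m + 2)) * (1 / 32) ^ j) (by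
      intro j ξ hξ
      have h1 := weight_bound hm (hLs.one_le j) hξ
      have h2 : (Ls j : ℝ) ≤ ‖ξ‖ := by
        have a1 : (Ls j : ℝ) ≤ Rn m (Ls j) := by exact_mod_cast hLs.Ls_le_Rn hm j
        exact a1.trans (Sset_norm_ge hξ)
      have h3 := hw j _ h2
      calc (1 + ‖ξ‖ ^ 2) ^ (sCrit (m + 1)) * w ‖ξ‖
          ≤ (1 + ‖ξ‖ ^ 2) ^ (sCrit (m + 1)) * (1 / 32) ^ j :=
            mul_le_mul_of_nonneg_left h3 (by positivity)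
        _ ≤ (5 + (m : ℝ)) * (cst m ^ 2 * (Ls j : ℝ) ^ (2 * m + 2)) * (1 / 32) ^ j :=
            mul_le_mul_of_nonneg_right h1 (by positivity))
  refine lt_of_le_of_lt h ?_
  have e : ∀ j, ENNReal.ofReal ((5 + (m : ℝ)) * (cst m ^ 2 * (Ls j : ℝ) ^ (2 * m + 2))
        * (1 / 32) ^ j * Amp m Ls j ^ 2) * volume (Sset m (Ls j))
      = ENNReal.ofReal ((5 + (m : ℝ)) * (cst m ^ 2 * (Ls j : ℝ) ^ (2 * m + 2))
        * (1 / 32) ^ j * (Amp m Ls j ^ 2 * Vol m (Ls j))) := by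
    intro j
    rw [volume_Sset' hm (hLs.one_le j), ← ENNReal.ofReal_mul (by positivity)]
    congr 1
    ring
  simp only [e]
  apply tsum_ofReal_lt_top _ ((5 + (m : ℝ)) * cst m ^ 2 * (4 * ((2 * π) ^ (m + 1)) ^ 2))
    (by positivity)
  intro j
  have hL : (0 : ℝ) < Ls j := by exact_mod_cast hLs.one_le j
  rw [Amp_sq_Vol hm hLs j]
  have e2 : (5 + (m : ℝ)) * (cst m ^ 2 * (Ls j : ℝ) ^ (2 * m + 2)) * (1 / 32) ^ j *
      (4 * 16 ^ j * ((2 * π) ^ (m + 1)) ^ 2 / (16 * 2 ^ m * (Ls j : ℝ) ^ (2 * m + 2)))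
      = (5 + (m : ℝ)) * cst m ^ 2 * (4 * ((2 * π) ^ (m + 1)) ^ 2) * (1 / 2) ^ j
        * (1 / (16 * 2 ^ m)) := by
    have e3 : ((1 : ℝ) / 32) ^ j * 16 ^ j = (1 / 2) ^ j := by
      rw [← mul_pow]; norm_num
    calc (5 + (m : ℝ)) * (cst m ^ 2 * (Ls j : ℝ) ^ (2 * m + 2)) * (1 / 32) ^ j *
      (4 * 16 ^ j * ((2 * π) ^ (m + 1)) ^ 2 / (16 * 2 ^ m * (Ls j : ℝ) ^ (2 * m + 2)))
        = (5 + (m : ℝ)) * cst m ^ 2 * (4 * ((2 * π) ^ (m + 1)) ^ 2) * ((1 / 32) ^ j * 16 ^ j)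
          * (1 / (16 * 2 ^ m)) := by
          field_simp
      _ = _ := by rw [e3]
  rw [e2]
  have h16 : 1 / (16 * 2 ^ m) ≤ (1 : ℝ) := by
    rw [div_le_one (by positivity)]
    have : (1 : ℝ) ≤ 2 ^ m := one_le_pow₀ (by norm_num)
    linarith
  have hpos : 0 ≤ (5 + (m : ℝ)) * cst m ^ 2 * (4 * ((2 * π) ^ (m + 1)) ^ 2) * (1 / 2) ^ j := by
    positivity
  nlinarith

theorem l2_finite (hm : 1 ≤ m) (hLs : GoodSeq Ls) :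
    ∫⁻ ξ, ENNReal.ofReal (1 * ‖Fm m Ls ξ‖ ^ 2) < ⊤ := by
  have hpi := Real.pi_pos
  have h := lintegral_Fsum_le (S := fun j => Sset m (Ls j)) (A := Amp m Ls)
    (fun j => measurableSet_Sset m (Ls j)) (hLs.disj hm)
    (fun _ => 1) (fun _ => 1) (fun _ _ _ => le_rfl)
  refine lt_of_le_of_lt h ?_
  have e : ∀ j, ENNReal.ofReal (1 * Amp m Ls j ^ 2) * volume (Sset m (Ls j))
      = ENNReal.ofReal (Amp m Ls j ^ 2 * Vol m (Ls j)) := by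
    intro j
    rw [volume_Sset' hm (hLs.one_le j), ← ENNReal.ofReal_mul (by positivity), one_mul]
  simp only [e]
  apply tsum_ofReal_lt_top _ (4 * ((2 * π) ^ (m + 1)) ^ 2) (by positivity)
  intro j
  rw [Amp_sq_Vol hm hLs j]
  have hL : (8 : ℝ) ^ j ≤ Ls j := by exact_mod_cast hLs.big j
  have hL1 : (1 : ℝ) ≤ Ls j := by exact_mod_cast hLs.one_le j
  have hden : (32 : ℝ) ^ j ≤ 16 * 2 ^ m * (Ls j : ℝ) ^ (2 * m + 2) := by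
    have a1 : (Ls j : ℝ) ^ 2 ≤ (Ls j : ℝ) ^ (2 * m + 2) := pow_le_pow_right₀ hL1 (by omega)
    have a2 : ((8 : ℝ) ^ j) ^ 2 ≤ (Ls j : ℝ) ^ 2 := pow_le_pow_left₀ (by positivity) hL 2
    have a3 : (32 : ℝ) ^ j ≤ ((8 : ℝ) ^ j) ^ 2 := by
      rw [← pow_mul, mul_comm, pow_mul]
      exact pow_le_pow_left₀ (by norm_num) (by norm_num) j
    have a4 : (1 : ℝ) ≤ 2 ^ m := one_le_pow₀ (by norm_num)
    have a5 : (0 : ℝ) ≤ (Ls j : ℝ) ^ (2 * m + 2) := by positivity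
    nlinarith
  calc 4 * 16 ^ j * ((2 * π) ^ (m + 1)) ^ 2 / (16 * 2 ^ m * (Ls j : ℝ) ^ (2 * m + 2))
      ≤ 4 * 16 ^ j * ((2 * π) ^ (m + 1)) ^ 2 / 32 ^ j := by gcongr
    _ = 4 * ((2 * π) ^ (m + 1)) ^ 2 * (1 / 2) ^ j := by
        have e3 : (16 : ℝ) ^ j / 32 ^ j = (1 / 2) ^ j := by
          rw [← div_pow]; norm_num
        rw [← e3]; ring

end Vale.Agent.P076
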