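import Vale.Agent.P076.Defs

open MeasureTheory Filter Topology Complex
open scoped Real

namespace Vale.Agent.P076

/-- a sum of multiples of indicator functions -/
noncomputable def Fsum {n : ℕ} (S : ℕ → Set (Sp n)) (A : ℕ → ℝ) (ξ : Sp n) : ℂ :=
  ∑' j, (S j).indicator (fun _ => (A j : ℂ)) ξ

variable {n : ℕ} {S : ℕ → Set (Sp n)} {A : ℕ → ℝ}

theorem Fsum_of_mem (hdisj : ∀ i j, i ≠ j → Disjoint (S i) (S j)) {j : ℕ} {ξ : Sp n}
    (hξ : ξ ∈ S j) : Fsum S A ξ = (A j : ℂ) := by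
  unfold Fsum
  rw [tsum_eq_single j, Set.indicator_of_mem hξ]
  intro i hi
  apply Set.indicator_of_notMem
  intro hi'
  exact Set.disjoint_left.mp (hdisj i j hi) hi' hξ

theorem Fsum_of_notMem {ξ : Sp n} (hξ : ∀ j, ξ ∉ S j) : Fsum S A ξ = 0 := by
  unfold Fsum
  have : ∀ j, (S j).indicator (fun _ => (A j : ℂ)) ξ = 0 :=
    fun j => Set.indicator_of_notMem (hξ j) _
  simp only [this, tsum_zero]

theorem summable_Fsum (hdisj : ∀ i j, i ≠ j → Disjoint (S i) (S j)) (ξ : Sp n) :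
    Summable (fun j => (S j).indicator (fun _ => (A j : ℂ)) ξ) := by
  by_cases h : ∃ j, ξ ∈ S j
  · obtain ⟨j, hj⟩ := h
    apply summable_of_ne_finset_zero (s := {j})
    intro i hi
    have hi' : i ≠ j := by simpa using hi
    apply Set.indicator_of_notMem
    intro hi''
    exact Set.disjoint_left.mp (hdisj i j hi') hi'' hj
  · push Not at h
    have : (fun j => (S j).indicator (fun _ => (A j : ℂ)) ξ) = fun _ => 0 := by
      funext j; exact Set.indicator_of_notMem (h j) _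
    rw [this]
    exact summable_zero

theorem measurable_Fsum (hS : ∀ j, MeasurableSet (S j))
    (hdisj : ∀ i j, i ≠ j → Disjoint (S i) (S j)) : Measurable (Fsum S A) := by
  apply measurable_of_tendsto_metrizable
    (f := fun N ξ => ∑ j ∈ Finset.range N, (S j).indicator (fun _ => (A j : ℂ)) ξ)
  · intro N
    apply Finset.measurable_sum
    intro j _
    exact measurable_const.indicator (hS j)
  · rw [tendsto_pi_nhds]
    intro ξ
    exact (summable_Fsum hdisj ξ).hasSum.tendsto_sum_nat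

theorem integral_mul_Fsum (hS : ∀ j, MeasurableSet (S j)) {K : Sp n → ℂ}
    (hK : ∀ j, IntegrableOn K (S j) volume)
    (hsum : Summable (fun j => |A j| * ∫ ξ in S j, ‖K ξ‖)) :
    HasSum (fun j => (A j : ℂ) * ∫ ξ in S j, K ξ) (∫ ξ, K ξ * Fsum S A ξ) := by
  have e0 : ∀ j ξ, K ξ * (S j).indicator (fun _ => (A j : ℂ)) ξ
      = (S j).indicator (fun ξ => (A j : ℂ) * K ξ) ξ := by
    intro j ξ
    by_cases h : ξ ∈ S j
    · rw [Set.indicator_of_mem h, Set.indicator_of_mem h]; ring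
    · rw [Set.indicator_of_notMem h, Set.indicator_of_notMem h]; ring
  have h1 : ∀ j, Integrable (fun ξ => K ξ * (S j).indicator (fun _ => (A j : ℂ)) ξ) volume := by
    intro j
    simp only [e0]
    rw [integrable_indicator_iff (hS j)]
    exact (hK j).const_mul _
  have h2 : ∀ j, ∫ ξ, ‖K ξ * (S j).indicator (fun _ => (A j : ℂ)) ξ‖
      = |A j| * ∫ ξ in S j, ‖K ξ‖ := by
    intro j
    have : ∀ ξ, ‖K ξ * (S j).indicator (fun _ => (A j : ℂ)) ξ‖
        = (S j).indicator (fun ξ => |A j| * ‖K ξ‖) ξ := by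
      intro ξ
      rw [e0]
      by_cases h : ξ ∈ S j
      · rw [Set.indicator_of_mem h, Set.indicator_of_mem h, norm_mul, Complex.norm_real,
          Real.norm_eq_abs]
      · rw [Set.indicator_of_notMem h, Set.indicator_of_notMem h, norm_zero]
    simp only [this]
    rw [integral_indicator (hS j), integral_const_mul]
  have h3 := hasSum_integral_of_summable_integral_norm h1 (by simpa only [h2] using hsum)
  have h4 : ∀ j, ∫ ξ, K ξ * (S j).indicator (fun _ => (A j : ℂ)) ξ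
      = (A j : ℂ) * ∫ ξ in S j, K ξ := by
    intro j
    simp only [e0]
    rw [integral_indicator (hS j), integral_const_mul]
  simp only [h4] at h3
  have h5 : ∀ ξ, ∑' j, K ξ * (S j).indicator (fun _ => (A j : ℂ)) ξ = K ξ * Fsum S A ξ := by
    intro ξ
    rw [tsum_mul_left]
    rfl
  simp only [h5] at h3
  exact h3

theorem lintegral_Fsum_le (hS : ∀ j, MeasurableSet (S j))
    (hdisj : ∀ i j, i ≠ j → Disjoint (S i) (S j)) (W : Sp n → ℝ) (Wb : ℕ → ℝ)
    (hW : ∀ j, ∀ ξ ∈ S j, W ξ ≤ Wb j) :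
    ∫⁻ ξ, ENNReal.ofReal (W ξ * ‖Fsum S A ξ‖ ^ 2)
      ≤ ∑' j, ENNReal.ofReal (Wb j * A j ^ 2) * volume (S j) := by
  have h1 : ∀ ξ, ENNReal.ofReal (W ξ * ‖Fsum S A ξ‖ ^ 2)
      ≤ ∑' j, (S j).indicator (fun _ => ENNReal.ofReal (Wb j * A j ^ 2)) ξ := by
    intro ξ
    by_cases h : ∃ j, ξ ∈ S j
    · obtain ⟨j, hj⟩ := h
      rw [Fsum_of_mem hdisj hj]
      refine le_trans ?_ (ENNReal.le_tsum j)
      rw [Set.indicator_of_mem hj]
      apply ENNReal.ofReal_le_ofReal
      rw [Complex.norm_real, Real.norm_eq_abs, sq_abs]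
      exact mul_le_mul_of_nonneg_right (hW j ξ hj) (sq_nonneg _)
    · push Not at h
      rw [Fsum_of_notMem h]
      simp
  calc ∫⁻ ξ, ENNReal.ofReal (W ξ * ‖Fsum S A ξ‖ ^ 2)
      ≤ ∫⁻ ξ, ∑' j, (S j).indicator (fun _ => ENNReal.ofReal (Wb j * A j ^ 2)) ξ :=
        lintegral_mono h1
    _ = ∑' j, ∫⁻ ξ, (S j).indicator (fun _ => ENNReal.ofReal (Wb j * A j ^ 2)) ξ := by
        apply lintegral_tsum
        intro j
        exact (measurable_const.indicator (hS j)).aemeasurable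
    _ = ∑' j, ENNReal.ofReal (Wb j * A j ^ 2) * volume (S j) := by
        congr 1
        funext j
        rw [lintegral_indicator_const (hS j)]

end Vale.Agent.P076
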