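import Vale.Agent.P076.Tail
import Vale.Agent.P076.Series

open MeasureTheory Filter Topology Complex
open scoped Real

namespace Vale.Agent.P076

theorem rho_mono {m L L' : ℕ} (h : L ≤ L') : rho m L ≤ rho m L' := by
  simp only [rho, Pn]; gcongr

theorem rho_two_mul (m L : ℕ) : rho m (2 * L) = 2 ^ (m + 2) * rho m L := by
  simp only [rho, Pn]
  rw [show 32 * m * (2 * L) = 2 * (32 * m * L) by ring, mul_pow, mul_pow]
  ring

theorem rho_growth {m L L' : ℕ} (hm : 1 ≤ m) (h : 2 * L ≤ L') : 8 * rho m L ≤ rho m L' := by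
  calc 8 * rho m L = 2 ^ 3 * rho m L := by norm_num
    _ ≤ 2 ^ (m + 2) * rho m L := by
        gcongr
        · norm_num
        · omega
    _ = rho m (2 * L) := (rho_two_mul m L).symm
    _ ≤ rho m L' := rho_mono h

theorem Rn_growth {m L L' : ℕ} (hm : 1 ≤ m) (h : 2 * L ≤ L') : 64 * Rn m L ≤ Rn m L' := by
  simp only [Rn]
  calc 64 * rho m L ^ 2 = (8 * rho m L) ^ 2 := by ring
    _ ≤ rho m L' ^ 2 := Nat.pow_le_pow_left (rho_growth hm h) 2

theorem Vol_eq {m L : ℕ} (hm : 1 ≤ m) : Vol m L = 16 * (L : ℝ) ^ 2 * (2 * (L : ℝ) ^ 2) ^ m := by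
  have hmr : (0 : ℝ) < m := by exact_mod_cast hm
  simp only [Vol, rho, Pn, delta]
  push_cast
  have e : (2 * (L : ℝ) ^ 2) ^ m = (32 * (m : ℝ) * L) ^ m * ((L : ℝ) * (1 / (16 * (m : ℝ)))) ^ m := by
    rw [← mul_pow]
    congr 1
    field_simp
    ring
  rw [e]
  ring

structure GoodSeq (Ls : ℕ → ℕ) : Prop where
  big : ∀ j, 8 ^ j ≤ Ls j
  grow : ∀ j, 2 * Ls j ≤ Ls (j + 1)

namespace GoodSeq

variable {Ls : ℕ → ℕ} (hLs : GoodSeq Ls)
include hLs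

theorem one_le (j : ℕ) : 1 ≤ Ls j := le_trans (Nat.one_le_pow _ _ (by norm_num)) (hLs.big j)

theorem grow_lt {i j : ℕ} (h : i < j) : 2 * Ls i ≤ Ls j := by
  induction j with
  | zero => omega
  | succ j ih =>
    rcases Nat.lt_succ_iff_lt_or_eq.mp h with h' | rfl
    · have := ih h'
      have := hLs.grow j
      omega
    · exact hLs.grow i

theorem Rn_lt {m : ℕ} (hm : 1 ≤ m) {i j : ℕ} (h : i < j) :
    64 * Rn m (Ls i) ≤ Rn m (Ls j) := Rn_growth hm (hLs.grow_lt h)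

theorem rho_big {m : ℕ} (hm : 1 ≤ m) (j : ℕ) : 2048 * 8 ^ j ≤ rho m (Ls j) := by
  have h1 := rho_ge hm (hLs.one_le j)
  have h2 : Ls j ≤ Ls j ^ 3 := by
    calc Ls j = Ls j ^ 1 := (pow_one _).symm
      _ ≤ Ls j ^ 3 := Nat.pow_le_pow_right (hLs.one_le j) (by norm_num)
  have h3 := hLs.big j
  calc 2048 * 8 ^ j ≤ 2048 * Ls j ^ 3 := Nat.mul_le_mul_left _ (h3.trans h2)
    _ ≤ rho m (Ls j) := h1

theorem Rn_big {m : ℕ} (hm : 1 ≤ m) (j : ℕ) : 8 ^ j ≤ Rn m (Ls j) := by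
  have h1 := hLs.rho_big hm j
  have h2 : rho m (Ls j) ≤ rho m (Ls j) ^ 2 := by
    calc rho m (Ls j) = rho m (Ls j) ^ 1 := (pow_one _).symm
      _ ≤ rho m (Ls j) ^ 2 := Nat.pow_le_pow_right (rho_pos hm (hLs.one_le j)) (by norm_num)
  simp only [Rn]
  omega

theorem Ls_le_Rn {m : ℕ} (hm : 1 ≤ m) (j : ℕ) : Ls j ≤ Rn m (Ls j) := by
  have h1 := rho_ge hm (hLs.one_le j)
  have h2 : Ls j ≤ Ls j ^ 3 := by
    calc Ls j = Ls j ^ 1 := (pow_one _).symm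
      _ ≤ Ls j ^ 3 := Nat.pow_le_pow_right (hLs.one_le j) (by norm_num)
  have h3 : rho m (Ls j) ≤ rho m (Ls j) ^ 2 := by
    calc rho m (Ls j) = rho m (Ls j) ^ 1 := (pow_one _).symm
      _ ≤ rho m (Ls j) ^ 2 := Nat.pow_le_pow_right (rho_pos hm (hLs.one_le j)) (by norm_num)
  simp only [Rn]
  omega

theorem disj {m : ℕ} (hm : 1 ≤ m) (i j : ℕ) (hij : i ≠ j) :
    Disjoint (Sset m (Ls i)) (Sset m (Ls j)) := by
  have key : ∀ i j, i < j → Disjoint (Sset m (Ls i)) (Sset m (Ls j)) := by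
    intro i j h
    rw [Set.disjoint_left]
    intro ξ h1 h2
    have a1 := (Sset_coord0 h1).2
    have a2 := (Sset_coord0 h2).1
    have a3 : (64 : ℝ) * Rn m (Ls i) ≤ Rn m (Ls j) := by exact_mod_cast hLs.Rn_lt hm h
    have hR : (Rn m (Ls i) : ℝ) = (rho m (Ls i) : ℝ) ^ 2 := by simp only [Rn]; push_cast; ring
    have hρ1 : (1 : ℝ) ≤ rho m (Ls i) := by exact_mod_cast rho_pos hm (hLs.one_le i)
    nlinarith
  rcases lt_or_gt_of_ne hij with h | h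
  · exact key i j h
  · exact (key j i h).symm

end GoodSeq

end Vale.Agent.P076
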