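import Mathlib

open MeasureTheory Filter Topology

namespace Vale.Agent.P076.Stmt

variable {E : Type} [NormedAddCommGroup E] [InnerProductSpace ℝ E] [FiniteDimensional ℝ E]
  [MeasurableSpace E] [BorelSpace E]

/-- The Fourier transform of an `L^2` function with kernel `exp (- i x ξ)`:
it is the unitary `L^2` Fourier transform of Mathlib (kernel `exp (- 2 π i x η)`)
evaluated at `η = ξ / (2 π)`. -/
noncomputable def hat (f : Lp ℂ 2 (volume : Measure E)) (ξ : E) : ℂ :=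
  (FourierTransform.fourier f : Lp ℂ 2 (volume : Measure E)) ((2 * Real.pi)⁻¹ • ξ)

/-- The Gaussian regularisation
`(2 π)^(-dim E) ∫ exp (i x ξ - i t |ξ|^2 - a |ξ|^2) hat f (ξ) dξ`. -/
noncomputable def regInt (f : Lp ℂ 2 (volume : Measure E)) (x : E) (t a : ℝ) : ℂ :=
  (((2 * Real.pi : ℝ) : ℂ) ^ (Module.finrank ℝ E))⁻¹ *
    ∫ ξ : E, Complex.exp (Complex.I * ((inner ℝ x ξ : ℝ) : ℂ)
      - Complex.I * (t : ℂ) * ((‖ξ‖ ^ 2 : ℝ) : ℂ) - (a : ℂ) * ((‖ξ‖ ^ 2 : ℝ) : ℂ)) * hat f ξ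

/-- `exp (i t Δ) f (x)` is defined and equals `v`. -/
def HasValue (f : Lp ℂ 2 (volume : Measure E)) (x : E) (t : ℝ) (v : ℂ) : Prop :=
  Tendsto (fun a : ℝ => regInt f x t a) (𝓝[>] 0) (𝓝 v)

/-- `exp (i t Δ) f (x)` is defined for all sufficiently small `t > 0` and tends to `c`
as `t` decreases to `0`. -/
def ConvergesAt (f : Lp ℂ 2 (volume : Measure E)) (x : E) (c : ℂ) : Prop :=
  ∃ δ : ℝ, 0 < δ ∧ ∃ u : ℝ → ℂ, (∀ t : ℝ, 0 < t → t < δ → HasValue f x t (u t)) ∧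
    Tendsto u (𝓝[>] 0) (𝓝 c)

end Vale.Agent.P076.Stmt
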