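import Vale.Agent.P076.Bounds

open MeasureTheory Filter Topology Complex
open scoped Real

namespace Vale.Agent.P076

theorem norm_g_le_one (y : ℝ) (t : ℝ) {a : ℝ} (ha : 0 ≤ a) (s : ℝ) :
    ‖cexp (I * (y : ℂ) * (s : ℂ) - ((a : ℂ) + I * (t : ℂ)) * (s : ℂ) ^ 2)‖ ≤ 1 := by
  rw [Complex.norm_exp, Real.exp_le_one_iff]
  have e : (I * (y : ℂ) * (s : ℂ) - ((a : ℂ) + I * (t : ℂ)) * (s : ℂ) ^ 2).re = -(a * s ^ 2) := by
    have : I * (y : ℂ) * (s : ℂ) - ((a : ℂ) + I * (t : ℂ)) * (s : ℂ) ^ 2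
        = ((-(a * s ^ 2) : ℝ) : ℂ) + ((y * s - t * s ^ 2 : ℝ) : ℂ) * I := by
      push_cast; ring
    rw [this, Complex.add_re, Complex.ofReal_re, Complex.re_ofReal_mul, Complex.I_re]
    ring
  rw [e]
  have : 0 ≤ a * s ^ 2 := by positivity
  linarith

theorem tail_bound {m L : ℕ} (hm : 1 ≤ m) (hL : 1 ≤ L) (x : Sp (m + 1)) {t a κ : ℝ}
    (ha : 0 ≤ a) (ht : 0 < t) (hκ : 0 < κ) (h : κ ≤ 2 * t * (Rn m L : ℝ) - x 0) :
    ‖∫ ξ in Sset m L, ker x t a ξ‖ ≤ 3 / κ * ((L : ℝ) * delta m) ^ m := by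
  rw [← integral_indicator (measurableSet_Sset m L)]
  have e1 : (Sset m L).indicator (ker x t a) = fun ξ =>
      Set.indicator {ξ : Sp (m + 1) | ∀ i, ξ i ∈ Sc m L i}
        (fun ξ => cexp (I * ((inner ℝ x ξ : ℝ) : ℂ)
          - ((a : ℂ) + I * (t : ℂ)) * ((‖ξ‖ ^ 2 : ℝ) : ℂ))) ξ := by
    funext ξ
    have : ker x t a = (fun ξ => cexp (I * ((inner ℝ x ξ : ℝ) : ℂ)
          - ((a : ℂ) + I * (t : ℂ)) * ((‖ξ‖ ^ 2 : ℝ) : ℂ))) := by
      funext ξ; exact ker_eq x t a ξ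
    rw [this]
    rfl
  rw [e1, prod_formula, Fin.prod_univ_succ, norm_mul, norm_prod]
  have hδ := delta_pos hm
  have hLpos : (0 : ℝ) < L := by exact_mod_cast hL
  apply mul_le_mul
  · have h0 : Sc m L 0 = Set.Icc (Rn m L : ℝ) ((Rn m L : ℝ) + (rho m L : ℝ) / 4) := rfl
    have hle : (Rn m L : ℝ) ≤ (Rn m L : ℝ) + (rho m L : ℝ) / 4 := by
      have : (0 : ℝ) ≤ rho m L := Nat.cast_nonneg _
      linarith
    rw [h0, integral_indicator measurableSet_Icc, integral_Icc_eq_integral_Ioc,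
      ← intervalIntegral.integral_of_le hle]
    exact vdc (x 0) t a κ _ _ ha ht hκ (Nat.cast_nonneg _) hle h
  · calc ∏ j : Fin m, ‖∫ s : ℝ, (Sc m L j.succ).indicator
          (fun s : ℝ => cexp (I * (x j.succ : ℂ) * (s : ℂ)
            - ((a : ℂ) + I * (t : ℂ)) * (s : ℂ) ^ 2)) s‖
        ≤ ∏ _j : Fin m, ((L : ℝ) * delta m) := by
          apply Finset.prod_le_prod
          · intro j _; exact norm_nonneg _
          · intro j _
            have h1 : Sc m L j.succ = S1 m L j := rfl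
            rw [h1, integral_indicator (measurableSet_S1 m L j)]
            have hv : volume (S1 m L j) < ⊤ := by
              rw [volume_S1 hm hL]; exact ENNReal.ofReal_lt_top
            have := norm_setIntegral_le_of_norm_le_const (μ := volume)
              (f := fun s : ℝ => cexp (I * (x j.succ : ℂ) * (s : ℂ)
                - ((a : ℂ) + I * (t : ℂ)) * (s : ℂ) ^ 2)) (C := 1) hv
              (fun s _ => norm_g_le_one (x j.succ) t ha s)
            rw [Measure.real, volume_S1 hm hL, ENNReal.toReal_ofReal (by positivity), one_mul] at this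
            exact this
      _ = ((L : ℝ) * delta m) ^ m := by
          rw [Finset.prod_const, Finset.card_univ, Fintype.card_fin]
  · exact Finset.prod_nonneg (fun j _ => norm_nonneg _)
  · positivity

theorem Sset_coord0 {m L : ℕ} {ξ : Sp (m + 1)} (hξ : ξ ∈ Sset m L) :
    (Rn m L : ℝ) ≤ ξ 0 ∧ ξ 0 ≤ (Rn m L : ℝ) + (rho m L : ℝ) / 4 := hξ 0

theorem Sset_norm_ge {m L : ℕ} {ξ : Sp (m + 1)} (hξ : ξ ∈ Sset m L) : (Rn m L : ℝ) ≤ ‖ξ‖ := by
  have h1 := (Sset_coord0 hξ).1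
  have h2 : ‖ξ 0‖ ≤ ‖ξ‖ := PiLp.norm_apply_le ξ 0
  have h3 : ξ 0 ≤ ‖ξ 0‖ := Real.le_norm_self _
  linarith

theorem Sset_norm_sq_le {m L : ℕ} (hm : 1 ≤ m) (hL : 1 ≤ L) {ξ : Sp (m + 1)} (hξ : ξ ∈ Sset m L) :
    ‖ξ‖ ^ 2 ≤ (4 + (m : ℝ)) * (Rn m L : ℝ) ^ 2 := by
  have hR : (Rn m L : ℝ) = (rho m L : ℝ) ^ 2 := by simp only [Rn]; push_cast; ring
  have hρ1 : (1 : ℝ) ≤ rho m L := by exact_mod_cast rho_pos hm hL
  have hRpos : (0 : ℝ) < Rn m L := by exact_mod_cast Rn_pos hm hL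
  have hDL : (Dn m L : ℝ) * L = Rn m L := by exact_mod_cast Dn_mul m L
  have hD2 : (2 : ℝ) ≤ Dn m L := by exact_mod_cast Dn_ge hm hL
  rw [EuclideanSpace.real_norm_sq_eq, Fin.sum_univ_succ]
  have h0 : (ξ 0) ^ 2 ≤ 4 * (Rn m L : ℝ) ^ 2 := by
    have h1 := Sset_coord0 hξ
    have h2 : ξ 0 ≤ 2 * (Rn m L : ℝ) := by nlinarith
    have h3 : 0 ≤ ξ 0 := by linarith
    nlinarith
  have hj : ∀ j : Fin m, (ξ j.succ) ^ 2 ≤ (Rn m L : ℝ) ^ 2 := by
    intro j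
    have h : ξ j.succ ∈ S1 m L j := hξ j.succ
    simp only [S1, Set.mem_iUnion, Finset.mem_range] at h
    obtain ⟨l, hl, hmem⟩ := h
    have hl' : (l : ℝ) + 1 ≤ L := by exact_mod_cast hl
    have hα0 := alpha_pos hm hL j
    have hα1 := alpha_le hm hL j
    have hδ := delta_le hm
    have hl0 : (0 : ℝ) ≤ l := Nat.cast_nonneg l
    have hlow : 0 ≤ ξ j.succ := by
      have : 0 ≤ (Dn m L : ℝ) * ((l : ℝ) + alpha m L j) := by positivity
      linarith [hmem.1]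
    have hup : ξ j.succ ≤ (Rn m L : ℝ) := by
      have h1 : (Dn m L : ℝ) * ((l : ℝ) + alpha m L j) ≤ (Dn m L : ℝ) * ((L : ℝ) - 1 / 2) := by
        apply mul_le_mul_of_nonneg_left _ (by linarith)
        linarith
      have h2 : (Dn m L : ℝ) * ((L : ℝ) - 1 / 2) = (Rn m L : ℝ) - (Dn m L : ℝ) / 2 := by
        rw [← hDL]; ring
      linarith [hmem.2]
    exact pow_le_pow_left₀ hlow hup 2
  have hs : ∑ j : Fin m, (ξ j.succ) ^ 2 ≤ (m : ℝ) * (Rn m L : ℝ) ^ 2 := by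
    calc ∑ j : Fin m, (ξ j.succ) ^ 2 ≤ ∑ _j : Fin m, (Rn m L : ℝ) ^ 2 :=
          Finset.sum_le_sum (fun j _ => hj j)
      _ = (m : ℝ) * (Rn m L : ℝ) ^ 2 := by
          rw [Finset.sum_const, Finset.card_univ, Fintype.card_fin, nsmul_eq_mul]
  linarith

theorem integral_norm_ker_le {m L : ℕ} (hm : 1 ≤ m) (hL : 1 ≤ L) (x : Sp (m + 1)) (t : ℝ) {a : ℝ}
    (ha : 0 ≤ a) :
    ∫ ξ in Sset m L, ‖ker x t a ξ‖ ≤ Vol m L * Real.exp (-(a * (Rn m L : ℝ) ^ 2)) := by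
  have hfin : volume (Sset m L) < ⊤ := by rw [volume_Sset' hm hL]; exact ENNReal.ofReal_lt_top
  have h1 : ∫ _ξ in Sset m L, Real.exp (-(a * (Rn m L : ℝ) ^ 2))
      = Vol m L * Real.exp (-(a * (Rn m L : ℝ) ^ 2)) := by
    rw [setIntegral_const, Measure.real, volume_real_Sset hm hL, smul_eq_mul]
  rw [← h1]
  apply setIntegral_mono_on
  · exact (integrableOn_ker x t ha hfin.ne).norm
  · exact integrableOn_const hfin.ne
  · exact measurableSet_Sset m L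
  · intro ξ hξ
    rw [norm_ker]
    apply Real.exp_le_exp.mpr
    have h2 := Sset_norm_ge hξ
    have h3 : (Rn m L : ℝ) ^ 2 ≤ ‖ξ‖ ^ 2 := pow_le_pow_left₀ (Nat.cast_nonneg _) h2 2
    have := mul_le_mul_of_nonneg_left h3 ha
    linarith

end Vale.Agent.P076
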