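import Vale.Agent.P076.Seq

open MeasureTheory Filter Topology Complex
open scoped Real

namespace Vale.Agent.P076

/-- amplitudes -/
noncomputable def Amp (m : ℕ) (Ls : ℕ → ℕ) (j : ℕ) : ℝ :=
  2 * 4 ^ j * (2 * π) ^ (m + 1) / Vol m (Ls j)

/-- the terms of the series -/
noncomputable def Tm (m : ℕ) (Ls : ℕ → ℕ) (x : Sp (m + 1)) (t a : ℝ) (j : ℕ) : ℂ :=
  (((2 * π : ℝ) : ℂ) ^ (m + 1))⁻¹ * ((Amp m Ls j : ℂ) * ∫ ξ in Sset m (Ls j), ker x t a ξ)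

variable {m : ℕ} {Ls : ℕ → ℕ}

theorem Amp_pos (hm : 1 ≤ m) (hLs : GoodSeq Ls) (j : ℕ) : 0 < Amp m Ls j := by
  have := Vol_pos hm (hLs.one_le j)
  have := Real.pi_pos
  unfold Amp
  positivity

theorem norm_Tm (hm : 1 ≤ m) (hLs : GoodSeq Ls) (x : Sp (m + 1)) (t a : ℝ) (j : ℕ) :
    ‖Tm m Ls x t a j‖ = 2 * 4 ^ j / Vol m (Ls j) * ‖∫ ξ in Sset m (Ls j), ker x t a ξ‖ := by
  have hV := Vol_pos hm (hLs.one_le j)
  have hpi := Real.pi_pos
  unfold Tm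
  rw [norm_mul, norm_mul, norm_inv, norm_pow, Complex.norm_real, Complex.norm_real,
    Real.norm_eq_abs, Real.norm_eq_abs, abs_of_pos (Amp_pos hm hLs j),
    abs_of_pos (by positivity : (0 : ℝ) < 2 * π)]
  unfold Amp
  field_simp

theorem Sset_fin (hm : 1 ≤ m) (hLs : GoodSeq Ls) (j : ℕ) : volume (Sset m (Ls j)) < ⊤ := by
  rw [volume_Sset' hm (hLs.one_le j)]; exact ENNReal.ofReal_lt_top

theorem Tm_trivial (hm : 1 ≤ m) (hLs : GoodSeq Ls) (x : Sp (m + 1)) (t : ℝ) {a : ℝ} (ha : 0 ≤ a)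
    (j : ℕ) : ‖Tm m Ls x t a j‖ ≤ 2 * 4 ^ j := by
  have hV := Vol_pos hm (hLs.one_le j)
  rw [norm_Tm hm hLs]
  have h := trivial_bound x t ha (Sset_fin hm hLs j)
  rw [volume_real_Sset hm (hLs.one_le j)] at h
  calc 2 * 4 ^ j / Vol m (Ls j) * ‖∫ ξ in Sset m (Ls j), ker x t a ξ‖
      ≤ 2 * 4 ^ j / Vol m (Ls j) * Vol m (Ls j) := by gcongr
    _ = 2 * 4 ^ j := by field_simp

theorem Tm_tail (hm : 1 ≤ m) (hLs : GoodSeq Ls) (x : Sp (m + 1)) (hx0 : x 0 ≤ 1) {t a : ℝ}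
    (ha : 0 ≤ a) {k j : ℕ} (hkj : k < j) (ht : 1 / (4 * (Rn m (Ls k) : ℝ)) ≤ t) :
    ‖Tm m Ls x t a j‖ ≤ (1 / 2) ^ j := by
  have hV := Vol_pos hm (hLs.one_le j)
  have hRk : (0 : ℝ) < Rn m (Ls k) := by exact_mod_cast Rn_pos hm (hLs.one_le k)
  have hRj : (64 : ℝ) * Rn m (Ls k) ≤ Rn m (Ls j) := by exact_mod_cast hLs.Rn_lt hm hkj
  have htpos : 0 < t := lt_of_lt_of_le (by positivity) ht
  have hκ : (1 : ℝ) ≤ 2 * t * (Rn m (Ls j) : ℝ) - x 0 := by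
    have h1 : 1 ≤ t * (4 * (Rn m (Ls k) : ℝ)) := by
      rwa [div_le_iff₀ (by positivity)] at ht
    have h2 : t * (64 * (Rn m (Ls k) : ℝ)) ≤ t * (Rn m (Ls j) : ℝ) :=
      mul_le_mul_of_nonneg_left hRj htpos.le
    nlinarith
  have h := tail_bound hm (hLs.one_le j) x ha htpos one_pos hκ
  rw [norm_Tm hm hLs]
  have hρ : (2048 : ℝ) * 8 ^ j ≤ rho m (Ls j) := by exact_mod_cast hLs.rho_big hm j
  have hρpos : (0 : ℝ) < rho m (Ls j) := by exact_mod_cast rho_pos hm (hLs.one_le j)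
  have hLδ : 0 < ((Ls j : ℝ) * delta m) ^ m := by
    have h1 : (0 : ℝ) < Ls j := by exact_mod_cast hLs.one_le j
    have := delta_pos hm
    positivity
  calc 2 * 4 ^ j / Vol m (Ls j) * ‖∫ ξ in Sset m (Ls j), ker x t a ξ‖
      ≤ 2 * 4 ^ j / Vol m (Ls j) * (3 / 1 * ((Ls j : ℝ) * delta m) ^ m) := by gcongr
    _ = 24 * 4 ^ j / rho m (Ls j) := by
        unfold Vol
        field_simp
        ring
    _ ≤ 24 * 4 ^ j / (2048 * 8 ^ j) := by gcongr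
    _ ≤ (1 / 2) ^ j := by
        rw [div_le_iff₀ (by positivity)]
        have e : ((1 : ℝ) / 2) ^ j * (2048 * 8 ^ j) = 2048 * 4 ^ j := by
          rw [show (8 : ℝ) = 2 * 4 by norm_num, mul_pow, one_div, inv_pow]
          field_simp
        rw [e]
        have : (0 : ℝ) < 4 ^ j := by positivity
        linarith

theorem Tm_main (hm : 1 ≤ m) (hLs : GoodSeq Ls) (x : Sp (m + 1)) (t Φ0 : ℝ) (k : ℕ)
    (h : ∀ ξ ∈ Sset m (Ls k), ∃ Z : ℤ, |(inner ℝ x ξ : ℝ) - t * ‖ξ‖ ^ 2 - Φ0 - 2 * π * Z| ≤ 1 / 2) :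
    4 ^ k ≤ ‖Tm m Ls x t 0 k‖ := by
  have hV := Vol_pos hm (hLs.one_le k)
  rw [norm_Tm hm hLs]
  have h1 := lower_bound (measurableSet_Sset m (Ls k)) (Sset_fin hm hLs k) x t Φ0 h
  rw [volume_real_Sset hm (hLs.one_le k)] at h1
  calc (4 : ℝ) ^ k = 2 * 4 ^ k / Vol m (Ls k) * (Vol m (Ls k) / 2) := by field_simp
    _ ≤ 2 * 4 ^ k / Vol m (Ls k) * ‖∫ ξ in Sset m (Ls k), ker x t 0 ξ‖ := by gcongr

theorem Tm_tendsto (hm : 1 ≤ m) (hLs : GoodSeq Ls) (x : Sp (m + 1)) (t : ℝ) (j : ℕ) :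
    Tendsto (fun a : ℝ => Tm m Ls x t a j) (𝓝[>] 0) (𝓝 (Tm m Ls x t 0 j)) := by
  unfold Tm
  exact ((tendsto_ker_integral x t (Sset_fin hm hLs j)).const_mul _).const_mul _

theorem summable_norm_ker (hm : 1 ≤ m) (hLs : GoodSeq Ls) (x : Sp (m + 1)) (t : ℝ) {a : ℝ}
    (ha : 0 < a) :
    Summable (fun j => |Amp m Ls j| * ∫ ξ in Sset m (Ls j), ‖ker x t a ξ‖) := by
  have hpi := Real.pi_pos
  apply Summable.of_nonneg_of_le (f := fun j => 2 * (2 * π) ^ (m + 1) / a * (1 / 16 : ℝ) ^ j)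
  · intro j
    apply mul_nonneg (abs_nonneg _)
    exact integral_nonneg (fun ξ => norm_nonneg _)
  · intro j
    have hV := Vol_pos hm (hLs.one_le j)
    have h1 := integral_norm_ker_le hm (hLs.one_le j) x t ha.le
    have hR : (8 : ℝ) ^ j ≤ Rn m (Ls j) := by exact_mod_cast hLs.Rn_big hm j
    have hR2 : (64 : ℝ) ^ j ≤ (Rn m (Ls j) : ℝ) ^ 2 := by
      calc (64 : ℝ) ^ j = (8 ^ j) ^ 2 := by rw [← pow_mul, mul_comm, pow_mul]; norm_num
        _ ≤ (Rn m (Ls j) : ℝ) ^ 2 := pow_le_pow_left₀ (by positivity) hR 2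
    have hexp : Real.exp (-(a * (Rn m (Ls j) : ℝ) ^ 2)) ≤ 1 / (a * 64 ^ j) := by
      have hy : 0 < a * (Rn m (Ls j) : ℝ) ^ 2 := by
        have : (0 : ℝ) < 64 ^ j := by positivity
        have : (0 : ℝ) < (Rn m (Ls j) : ℝ) ^ 2 := by linarith
        positivity
      rw [Real.exp_neg, ← one_div]
      apply one_div_le_one_div_of_le (by positivity)
      calc a * 64 ^ j ≤ a * (Rn m (Ls j) : ℝ) ^ 2 := by gcongr
        _ ≤ Real.exp (a * (Rn m (Ls j) : ℝ) ^ 2) := by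
            have := Real.add_one_le_exp (a * (Rn m (Ls j) : ℝ) ^ 2)
            linarith
    rw [abs_of_pos (Amp_pos hm hLs j)]
    calc Amp m Ls j * ∫ ξ in Sset m (Ls j), ‖ker x t a ξ‖
        ≤ Amp m Ls j * (Vol m (Ls j) * (1 / (a * 64 ^ j))) := by
          have := Amp_pos hm hLs j
          gcongr
          exact h1.trans (by gcongr)
      _ = 2 * (2 * π) ^ (m + 1) / a * (1 / 16 : ℝ) ^ j := by
          unfold Amp
          rw [show (64 : ℝ) = 4 * 16 by norm_num, one_div_pow]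
          field_simp
          rw [mul_pow]
  · exact (summable_geometric_of_lt_one (by norm_num) (by norm_num)).mul_left _

end Vale.Agent.P076
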