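import Vale.Agent.P076.Terms

open MeasureTheory Filter Topology Complex
open scoped Real

namespace Vale.Agent.P076

/-- the Fourier side of the counterexample -/
noncomputable def Fm (m : ℕ) (Ls : ℕ → ℕ) : Sp (m + 1) → ℂ :=
  Fsum (fun j => Sset m (Ls j)) (Amp m Ls)

variable {m : ℕ} {Ls : ℕ → ℕ}

theorem value_eq_tsum (hm : 1 ≤ m) (hLs : GoodSeq Ls) (x : Sp (m + 1)) (t : ℝ) {a : ℝ}
    (ha : 0 < a) :
    (((2 * π : ℝ) : ℂ) ^ (m + 1))⁻¹ * ∫ ξ, ker x t a ξ * Fm m Ls ξ = ∑' j, Tm m Ls x t a j := by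
  have h := integral_mul_Fsum (S := fun j => Sset m (Ls j)) (A := Amp m Ls)
    (fun j => measurableSet_Sset m (Ls j)) (K := ker x t a)
    (fun j => integrableOn_ker x t ha.le (Sset_fin hm hLs j).ne)
    (summable_norm_ker hm hLs x t ha)
  exact ((h.mul_left ((((2 * π : ℝ) : ℂ) ^ (m + 1))⁻¹)).tsum_eq).symm

theorem Tm_bound (hm : 1 ≤ m) (hLs : GoodSeq Ls) (x : Sp (m + 1)) (hx0 : x 0 ≤ 1) {t a : ℝ}
    (ha : 0 ≤ a) {k : ℕ} (ht : 1 / (4 * (Rn m (Ls k) : ℝ)) ≤ t) (j : ℕ) :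
    ‖Tm m Ls x t a j‖ ≤ (2 * 4 ^ k * 2 ^ k) * (1 / 2) ^ j := by
  rcases le_or_gt j k with hjk | hjk
  · refine (Tm_trivial hm hLs x t ha j).trans ?_
    have h1 : (4 : ℝ) ^ j ≤ 4 ^ k := pow_le_pow_right₀ (by norm_num) hjk
    have h2 : (1 : ℝ) ≤ 2 ^ k * (1 / 2) ^ j := by
      obtain ⟨d, rfl⟩ := Nat.exists_eq_add_of_le hjk
      rw [pow_add, one_div, inv_pow]
      have : (0 : ℝ) < 2 ^ j := by positivity
      have h3 : (1 : ℝ) ≤ 2 ^ d := one_le_pow₀ (by norm_num)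
      field_simp
      linarith
    have h4 : (0 : ℝ) < 4 ^ k := by positivity
    calc (2 : ℝ) * 4 ^ j ≤ 2 * 4 ^ k * 1 := by linarith
      _ ≤ 2 * 4 ^ k * (2 ^ k * (1 / 2) ^ j) := by gcongr
      _ = (2 * 4 ^ k * 2 ^ k) * (1 / 2) ^ j := by ring
  · refine (Tm_tail hm hLs x hx0 ha hjk ht).trans ?_
    have h1 : (1 : ℝ) ≤ 2 * 4 ^ k * 2 ^ k := by
      have h3 : (1 : ℝ) ≤ 2 ^ k := one_le_pow₀ (by norm_num)
      have h4 : (1 : ℝ) ≤ 4 ^ k := one_le_pow₀ (by norm_num)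
      nlinarith
    have h2 : (0 : ℝ) < (1 / 2) ^ j := by positivity
    nlinarith

theorem tsum_tendsto (hm : 1 ≤ m) (hLs : GoodSeq Ls) (x : Sp (m + 1)) (hx0 : x 0 ≤ 1) {t : ℝ}
    {k : ℕ} (ht : 1 / (4 * (Rn m (Ls k) : ℝ)) ≤ t) :
    Tendsto (fun a : ℝ => ∑' j, Tm m Ls x t a j) (𝓝[>] 0) (𝓝 (∑' j, Tm m Ls x t 0 j)) := by
  apply tendsto_tsum_of_dominated_convergence
    (bound := fun j => (2 * 4 ^ k * 2 ^ k) * (1 / 2 : ℝ) ^ j)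
  · exact (summable_geometric_of_lt_one (by norm_num) (by norm_num)).mul_left _
  · intro j
    exact Tm_tendsto hm hLs x t j
  · filter_upwards [self_mem_nhdsWithin] with a ha
    intro j
    exact Tm_bound hm hLs x hx0 (le_of_lt ha) ht j

theorem geom_aux (k : ℕ) : ∑ i ∈ Finset.range k, (2 : ℝ) * 4 ^ i ≤ 2 / 3 * 4 ^ k := by
  induction k with
  | zero => norm_num
  | succ k ih =>
    rw [Finset.sum_range_succ, pow_succ]
    linarith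

theorem tsum_lower (hm : 1 ≤ m) (hLs : GoodSeq Ls) (x : Sp (m + 1)) (hx0 : x 0 ≤ 1) {t : ℝ}
    {k : ℕ} (ht : 1 / (4 * (Rn m (Ls k) : ℝ)) ≤ t) (hmain : 4 ^ k ≤ ‖Tm m Ls x t 0 k‖) :
    (4 : ℝ) ^ k / 3 - 1 ≤ ‖∑' j, Tm m Ls x t 0 j‖ := by
  have hsum : Summable (fun j => Tm m Ls x t 0 j) := by
    apply Summable.of_norm_bounded
      (g := fun j => (2 * 4 ^ k * 2 ^ k) * (1 / 2 : ℝ) ^ j)
    · exact (summable_geometric_of_lt_one (by norm_num) (by norm_num)).mul_left _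
    · intro j
      exact Tm_bound hm hLs x hx0 le_rfl ht j
  have hsplit := hsum.sum_add_tsum_nat_add (k + 1)
  rw [Finset.sum_range_succ] at hsplit
  have h1 : ‖∑ i ∈ Finset.range k, Tm m Ls x t 0 i‖ ≤ 2 / 3 * 4 ^ k := by
    refine (norm_sum_le _ _).trans (le_trans ?_ (geom_aux k))
    exact Finset.sum_le_sum (fun i _ => Tm_trivial hm hLs x t le_rfl i)
  have h2 : ‖∑' i, Tm m Ls x t 0 (i + (k + 1))‖ ≤ 1 := by
    have hg : HasSum (fun i : ℕ => (1 / 2 : ℝ) ^ (k + 1) * (1 / 2 : ℝ) ^ i)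
        ((1 / 2 : ℝ) ^ (k + 1) * 2) := hasSum_geometric_two.mul_left _
    have hb := tsum_of_norm_bounded hg (f := fun i => Tm m Ls x t 0 (i + (k + 1))) (by
      intro i
      have := Tm_tail hm hLs x hx0 le_rfl (show k < i + (k + 1) by omega) ht
      refine this.trans (le_of_eq ?_)
      rw [← pow_add]; congr 1; omega)
    refine hb.trans ?_
    have : (1 / 2 : ℝ) ^ (k + 1) ≤ 1 / 2 := by
      calc (1 / 2 : ℝ) ^ (k + 1) ≤ (1 / 2 : ℝ) ^ 1 :=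
            pow_le_pow_of_le_one (by norm_num) (by norm_num) (by omega)
        _ = 1 / 2 := by norm_num
    linarith
  have h3 : Tm m Ls x t 0 k = ∑' j, Tm m Ls x t 0 j - ∑ i ∈ Finset.range k, Tm m Ls x t 0 i
      - ∑' i, Tm m Ls x t 0 (i + (k + 1)) := by
    rw [← hsplit]; ring
  have h4 : ‖Tm m Ls x t 0 k‖ ≤ ‖∑' j, Tm m Ls x t 0 j‖ + ‖∑ i ∈ Finset.range k, Tm m Ls x t 0 i‖
      + ‖∑' i, Tm m Ls x t 0 (i + (k + 1))‖ := by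
    rw [h3]
    refine (norm_sub_le _ _).trans ?_
    gcongr
    exact norm_sub_le _ _
  linarith

theorem blowup (hm : 1 ≤ m) (hLs : GoodSeq Ls) (x : Sp (m + 1))
    (hx0 : x 0 ∈ Set.Icc (1 / 2 : ℝ) 1) (hx : ∀ j : Fin m, x j.succ ∈ Set.Icc (0 : ℝ) 1) (k : ℕ) :
    ∃ t : ℝ, 0 < t ∧ t ≤ 5 / (8 * (Rn m (Ls k) : ℝ)) ∧ ∃ v : ℂ,
      Tendsto (fun a : ℝ => (((2 * π : ℝ) : ℂ) ^ (m + 1))⁻¹ * ∫ ξ, ker x t a ξ * Fm m Ls ξ)
        (𝓝[>] 0) (𝓝 v) ∧ (4 : ℝ) ^ k / 3 - 1 ≤ ‖v‖ := by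
  obtain ⟨t, ht1, ht2, Φ0, hΦ⟩ := phase_main hm (hLs.one_le k) x hx0 hx
  have hRk : (0 : ℝ) < Rn m (Ls k) := by exact_mod_cast Rn_pos hm (hLs.one_le k)
  refine ⟨t, lt_of_lt_of_le (by positivity) ht1, ht2, ∑' j, Tm m Ls x t 0 j, ?_, ?_⟩
  · refine (tsum_tendsto hm hLs x hx0.2 ht1).congr' ?_
    filter_upwards [self_mem_nhdsWithin] with a ha
    exact (value_eq_tsum hm hLs x t ha).symm
  · exact tsum_lower hm hLs x hx0.2 ht1 (Tm_main hm hLs x t Φ0 k hΦ)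

end Vale.Agent.P076
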