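import Vale.Agent.P076.Final

open MeasureTheory Filter Topology Complex
open scoped Real FourierTransform

namespace Vale.Agent.P076

theorem weighted_divergence (n : ℕ) (hn : 2 ≤ n) (w : ℝ → ℝ) (hw : Tendsto w atTop (𝓝 0)) :
    ∃ f : Lp ℂ 2 (volume : Measure (Sp n)),
      (∫⁻ ξ : Sp n, ENNReal.ofReal ((1 + ‖ξ‖ ^ 2) ^ (sCrit n) * w ‖ξ‖ * ‖hat f ξ‖ ^ 2) < ⊤) ∧
      ∃ A : Set (Sp n), MeasurableSet A ∧ 0 < volume A ∧ ∀ x ∈ A,
        (∀ M δ : ℝ, 0 < δ → ∃ t : ℝ, 0 < t ∧ t < δ ∧ ∃ v : ℂ, HasValue f x t v ∧ M ≤ ‖v‖) ∧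
        (∀ c : ℂ, ¬ ConvergesAt f x c) := by
  obtain ⟨m, rfl⟩ : ∃ m, n = m + 1 := ⟨n - 1, by omega⟩
  have hm : 1 ≤ m := by omega
  obtain ⟨Ls, hLs, hwL⟩ := exists_goodSeq w hw
  refine ⟨fCE hm hLs, ?_, ?_⟩
  · have h := weighted_finite hm hLs w hwL
    refine lt_of_le_of_lt (le_of_eq ?_) h
    apply lintegral_congr_ae
    filter_upwards [hat_fCE hm hLs] with ξ hξ
    rw [hξ]
  · set c0 : Sp (m + 1) := WithLp.toLp 2 (Fin.cons (3 / 4 : ℝ) (fun _ => (1 / 2 : ℝ))) with hc0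
    refine ⟨Metric.ball c0 (1 / 4), measurableSet_ball, Metric.measure_ball_pos _ _ (by norm_num), ?_⟩
    intro x hx
    have hdist : ‖x - c0‖ < 1 / 4 := by rwa [Metric.mem_ball, dist_eq_norm] at hx
    have hcoord : ∀ i, |x i - c0 i| < 1 / 4 := by
      intro i
      have h1 : ‖(x - c0) i‖ ≤ ‖x - c0‖ := PiLp.norm_apply_le (x - c0) i
      have h2 : (x - c0) i = x i - c0 i := rfl
      rw [h2, Real.norm_eq_abs] at h1
      linarith
    have hx0 : x 0 ∈ Set.Icc (1 / 2 : ℝ) 1 := by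
      have h := hcoord 0
      have e : c0 0 = 3 / 4 := rfl
      rw [e, abs_lt] at h
      constructor <;> linarith [h.1, h.2]
    have hxj : ∀ j : Fin m, x j.succ ∈ Set.Icc (0 : ℝ) 1 := by
      intro j
      have h := hcoord j.succ
      have e : c0 j.succ = 1 / 2 := rfl
      rw [e, abs_lt] at h
      constructor <;> linarith [h.1, h.2]
    have hb := blowup_fCE hm hLs x hx0 hxj
    exact ⟨hb, not_converges_of_blowup _ x hb⟩

end Vale.Agent.P076
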